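import Vale.Agent.Lib.P279.Defs

namespace Vale.Agent.Lib.P279

open MvPolynomial

lemma foldl_add (l : List (Fin 3)) (X Y : MvPolynomial (Fin 3) ℂ) :
    l.foldl (fun G i => pderiv i G) (X + Y)
      = l.foldl (fun G i => pderiv i G) X + l.foldl (fun G i => pderiv i G) Y := by
  induction l generalizing X Y with
  | nil => rfl
  | cons i l ih =>
    simp only [List.foldl_cons, map_add]
    exact ih _ _

lemma MultGE.mono {F : MvPolynomial (Fin 3) ℂ} {p : Fin 3 → ℂ} {a b : ℕ} (hab : b ≤ a)
    (h : MultGE F p a) : MultGE F p b :=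
  fun l hl => h l (by omega)

lemma MultGE.deriv {F : MvPolynomial (Fin 3) ℂ} {p : Fin 3 → ℂ} {a : ℕ} (h : MultGE F p a)
    (i : Fin 3) : MultGE (pderiv i F) p (a - 1) := by
  intro l hl
  have := h (i :: l) (by simp only [List.length_cons]; omega)
  simpa only [List.foldl_cons] using this

theorem MultGE.mul_aux (p : Fin 3 → ℂ) (l : List (Fin 3)) :
    ∀ (F H : MvPolynomial (Fin 3) ℂ) (a b : ℕ), MultGE F p a → MultGE H p b →
      l.length < a + b → eval p (l.foldl (fun G i => pderiv i G) (F * H)) = 0 := by
  induction l with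
  | nil =>
    intro F H a b hF hH hl
    show eval p (F * H) = 0
    rw [map_mul]
    rcases Nat.eq_zero_or_pos a with ha | ha
    · have : eval p H = 0 := hH [] (by simp only [List.length_nil] at hl ⊢; omega)
      rw [this, mul_zero]
    · have : eval p F = 0 := hF [] (by simpa using ha)
      rw [this, zero_mul]
  | cons i l ih =>
    intro F H a b hF hH hl
    simp only [List.length_cons] at hl
    simp only [List.foldl_cons]
    have hd : pderiv i (F * H) = pderiv i F * H + F * pderiv i H := by
      rw [Derivation.leibniz]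
      simp only [smul_eq_mul]
      ring
    rw [hd, foldl_add, map_add]
    rw [ih _ _ (a - 1) b (hF.deriv i) hH (by omega), ih _ _ a (b - 1) hF (hH.deriv i) (by omega),
      add_zero]

theorem MultGE.mul {F H : MvPolynomial (Fin 3) ℂ} {p : Fin 3 → ℂ} {a b : ℕ}
    (hF : MultGE F p a) (hH : MultGE H p b) : MultGE (F * H) p (a + b) :=
  fun l hl => MultGE.mul_aux p l F H a b hF hH hl

theorem MultGE.pow {F : MvPolynomial (Fin 3) ℂ} {p : Fin 3 → ℂ} {m : ℕ}
    (hF : MultGE F p m) (k : ℕ) : MultGE (F ^ k) p (k * m) := by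
  induction k with
  | zero => intro l hl; simp at hl
  | succ k ih =>
    rw [pow_succ, Nat.succ_mul]
    exact ih.mul hF

lemma MultGE.zero (F : MvPolynomial (Fin 3) ℂ) (p : Fin 3 → ℂ) : MultGE F p 0 :=
  fun _ hl => absurd hl (Nat.not_lt_zero _)

lemma dfact_step (n a : ℕ) : n * (n - 1).descFactorial a = n.descFactorial (a + 1) := by
  cases n with
  | zero => simp
  | succ n => rw [Nat.succ_descFactorial_succ]; simp

/-- iterated derivative of a monomial in one variable. -/
lemma foldl_replicate_monomial (i : Fin 3) (a : ℕ) (e : Fin 3 →₀ ℕ) (c : ℂ) :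
    (List.replicate a i).foldl (fun G i => pderiv i G) (monomial e c)
      = monomial (e - a • Finsupp.single i 1) (c * ((e i).descFactorial a : ℕ)) := by
  induction a generalizing e c with
  | zero => simp
  | succ a ih =>
    rw [List.replicate_succ, List.foldl_cons, pderiv_monomial, ih]
    have hX : e - Finsupp.single i 1 - a • Finsupp.single i 1
        = e - (a + 1) • (Finsupp.single i 1 : Fin 3 →₀ ℕ) := by
      ext j
      show (e j - (Finsupp.single i 1 : Fin 3 →₀ ℕ) j) - (a • (Finsupp.single i 1 : Fin 3 →₀ ℕ)) j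
        = e j - ((a + 1) • (Finsupp.single i 1 : Fin 3 →₀ ℕ)) j
      simp only [Finsupp.smul_apply, smul_eq_mul, Finsupp.single_apply]
      by_cases h : i = j
      · simp only [h, if_true]; omega
      · simp only [h, if_false]; omega
    have h1 : (e - Finsupp.single i 1 : Fin 3 →₀ ℕ) i = e i - 1 := by
      show e i - (Finsupp.single i 1 : Fin 3 →₀ ℕ) i = e i - 1
      simp
    rw [hX, h1, ← dfact_step]
    congr 1
    push_cast
    ring

end Vale.Agent.Lib.P279
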