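import Vale.Agent.Lib.P279.Reduce
import Vale.Agent.Lib.P279.MultGE

/-!
From the moment form on the positive torus to an honest polynomial condition on the points.
-/

namespace Vale.Agent.Lib.P279

open Finset

/-- exponents of polynomials of degree at most `D` in two variables. -/
noncomputable def T (D : ℕ) : Finset Pt :=
  ((Finset.Icc (0 : ℤ) D) ×ˢ (Finset.Icc (0 : ℤ) D)).filter (fun s => s.1 + s.2 ≤ D)

lemma mem_T {D : ℕ} {s : Pt} : s ∈ T D ↔ 0 ≤ s.1 ∧ 0 ≤ s.2 ∧ s.1 + s.2 ≤ D := by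
  simp only [T, mem_filter, mem_product, mem_Icc]
  omega

/-- derivative condition as a matrix entry. -/
def entry {R : Type*} [CommRing R] (x y : R) (M a b : ℕ) (s : Pt) : R :=
  if a + b < M then
    ((s.1.toNat.descFactorial a : ℕ) : R) * ((s.2.toNat.descFactorial b : ℕ) : R) *
      x ^ (s.1.toNat - a) * y ^ (s.2.toNat - b)
  else 0

/-- the matrix of all derivative conditions at all points. -/
def Amat {R : Type*} [CommRing R] {r : ℕ} (τ : Fin r → R × R) (D M : ℕ) :
    Matrix (Fin r × Fin M × Fin M) (↥(T D)) R :=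
  fun i s => entry (τ i.1).1 (τ i.1).2 M i.2.1 i.2.2 s.1

lemma Amat_map {R R' : Type*} [CommRing R] [CommRing R'] (φ : R →+* R') {r : ℕ}
    (τ : Fin r → R × R) (D M : ℕ) :
    (Amat τ D M).map φ = Amat (fun i => (φ (τ i).1, φ (τ i).2)) D M := by
  ext i s
  simp only [Matrix.map_apply, Amat, entry]
  split_ifs
  · simp only [map_mul, map_pow, map_natCast]
  · simp

lemma prod_cast_desc (n a : ℕ) :
    ∏ k ∈ range a, ((n : ℝ) - k) = ((n.descFactorial a : ℕ) : ℝ) := by
  induction a with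
  | zero => simp
  | succ a ih =>
    rw [prod_range_succ, ih, Nat.descFactorial_succ]
    rcases Nat.lt_or_ge n a with h | h
    · rw [Nat.descFactorial_eq_zero_iff_lt.mpr h]
      simp
    · push_cast [Nat.cast_sub h]
      ring

lemma ff_eq_desc {s : Pt} (h1 : 0 ≤ s.1) (h2 : 0 ≤ s.2) (a b : ℕ) :
    ff a b s = ((s.1.toNat.descFactorial a : ℕ) : ℝ) * ((s.2.toNat.descFactorial b : ℕ) : ℝ) := by
  have e1 : (s.1 : ℝ) = ((s.1.toNat : ℕ) : ℝ) := by
    have : ((s.1.toNat : ℕ) : ℤ) = s.1 := Int.toNat_of_nonneg h1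
    exact_mod_cast this.symm
  have e2 : (s.2 : ℝ) = ((s.2.toNat : ℕ) : ℝ) := by
    have : ((s.2.toNat : ℕ) : ℤ) = s.2 := Int.toNat_of_nonneg h2
    exact_mod_cast this.symm
  rw [ff, e1, e2, prod_cast_desc, prod_cast_desc]

lemma desc_pow_mul {p : ℝ} (n a : ℕ) :
    ((n.descFactorial a : ℕ) : ℝ) * p ^ n
      = ((n.descFactorial a : ℕ) : ℝ) * (p ^ (n - a) * p ^ a) := by
  rcases Nat.lt_or_ge n a with h | h
  · rw [Nat.descFactorial_eq_zero_iff_lt.mpr h]
    simp
  · rw [← pow_add, Nat.sub_add_cancel h]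

/-- `Kill` in matrix form: the real matrix is injective. -/
theorem amat_real_inj {r D M : ℕ} (P : Fin r → ℝ × ℝ) (hP : ∀ i, 0 < (P i).1 ∧ 0 < (P i).2)
    (hK : ∀ c : Pt → ℝ, (∀ i, Ann (T D) (fun s => c s * tw (P i) s) M) → ∀ s ∈ T D, c s = 0)
    (x : ↥(T D) → ℝ) (hx : (Amat P D M).mulVec x = 0) : x = 0 := by
  classical
  let c : Pt → ℝ := fun s => if h : s ∈ T D then x ⟨s, h⟩ else 0
  have hc : ∀ s ∈ T D, c s = 0 := by
    apply hK
    intro l
    apply ann_of_ff
    intro a b hab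
    have ha : a < M := by omega
    have hb : b < M := by omega
    have h1 := congrFun hx (l, ⟨a, ha⟩, ⟨b, hb⟩)
    simp only [Matrix.mulVec, dotProduct, Pi.zero_apply, Amat, entry, hab, if_true] at h1
    have hp1 := (hP l).1
    have hp2 := (hP l).2
    have h2 : ∑ s ∈ T D, c s * tw (P l) s * ff a b s
        = (P l).1 ^ a * (P l).2 ^ b * ∑ s : ↥(T D),
          ((s.1.1.toNat.descFactorial a : ℕ) : ℝ) * ((s.1.2.toNat.descFactorial b : ℕ) : ℝ) *
            (P l).1 ^ (s.1.1.toNat - a) * (P l).2 ^ (s.1.2.toNat - b) * x s := by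
      rw [mul_sum, ← sum_attach (T D)]
      apply sum_congr rfl
      intro s _
      have hs := mem_T.mp s.2
      have e1 : ((P l).1) ^ s.1.1 = ((P l).1) ^ (s.1.1.toNat) := by
        conv_lhs => rw [← Int.toNat_of_nonneg hs.1]
        rw [zpow_natCast]
      have e2 : ((P l).2) ^ s.1.2 = ((P l).2) ^ (s.1.2.toNat) := by
        conv_lhs => rw [← Int.toNat_of_nonneg hs.2.1]
        rw [zpow_natCast]
      simp only [c, s.2, dite_true, Subtype.coe_eta, tw, e1, e2]
      rw [ff_eq_desc hs.1 hs.2.1]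
      have e3 := desc_pow_mul (p := (P l).1) s.1.1.toNat a
      have e4 := desc_pow_mul (p := (P l).2) s.1.2.toNat b
      calc x s * ((P l).1 ^ s.1.1.toNat * (P l).2 ^ s.1.2.toNat) *
            (((s.1.1.toNat.descFactorial a : ℕ) : ℝ) * ((s.1.2.toNat.descFactorial b : ℕ) : ℝ))
          = x s * (((s.1.1.toNat.descFactorial a : ℕ) : ℝ) * (P l).1 ^ s.1.1.toNat) *
            (((s.1.2.toNat.descFactorial b : ℕ) : ℝ) * (P l).2 ^ s.1.2.toNat) := by ring
        _ = _ := by rw [e3, e4]; ring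
    show ∑ s ∈ T D, c s * tw (P l) s * ff a b s = 0
    rw [h2, h1, mul_zero]
  funext s
  have := hc s.1 s.2
  simpa [c] using this

/-- a real matrix with trivial kernel gives a nonzero Gram determinant. -/
theorem gram_det_ne_zero {ι κ : Type*} [Fintype ι] [Fintype κ] [DecidableEq κ]
    (A : Matrix ι κ ℝ) (h : ∀ x, A.mulVec x = 0 → x = 0) : (A.transpose * A).det ≠ 0 := by
  intro hdet
  obtain ⟨v, hv, hv0⟩ := Matrix.exists_mulVec_eq_zero_iff.mpr hdet
  apply hv
  apply h
  have h1 : dotProduct (A.mulVec v) (A.mulVec v) = 0 := by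
    have : dotProduct (A.mulVec v) (A.mulVec v) = dotProduct v ((A.transpose * A).mulVec v) := by
      rw [← Matrix.mulVec_mulVec, Matrix.dotProduct_mulVec, Matrix.mulVec_transpose,
        dotProduct_comm]
    rw [this, hv0, dotProduct_zero]
  exact dotProduct_self_eq_zero.mp h1

/-- the polynomial in the coordinates of the points. -/
noncomputable def Gpoly (r D M : ℕ) : MvPolynomial (Fin r × Fin 2) ℂ :=
  ((Amat (fun i => ((MvPolynomial.X (i, 0) : MvPolynomial (Fin r × Fin 2) ℂ),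
      (MvPolynomial.X (i, 1) : MvPolynomial (Fin r × Fin 2) ℂ))) D M).transpose *
    (Amat (fun i => ((MvPolynomial.X (i, 0) : MvPolynomial (Fin r × Fin 2) ℂ),
      (MvPolynomial.X (i, 1) : MvPolynomial (Fin r × Fin 2) ℂ))) D M)).det

lemma eval_Gpoly {r D M : ℕ} (t : Fin r × Fin 2 → ℂ) :
    MvPolynomial.eval t (Gpoly r D M)
      = ((Amat (fun i => (t (i, 0), t (i, 1))) D M).transpose *
          (Amat (fun i => (t (i, 0), t (i, 1))) D M)).det := by
  rw [Gpoly, RingHom.map_det, RingHom.mapMatrix_apply, Matrix.map_mul, Matrix.transpose_map,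
    Amat_map]
  simp only [MvPolynomial.eval_X]

theorem Gpoly_ne_zero {r D M : ℕ} (K : Kill (T D) r M) : Gpoly r D M ≠ 0 := by
  obtain ⟨P, hP, hK⟩ := K
  intro h0
  let t : Fin r × Fin 2 → ℂ := fun ij =>
    if ij.2 = 0 then (((P ij.1).1 : ℝ) : ℂ) else (((P ij.1).2 : ℝ) : ℂ)
  have h1 := eval_Gpoly (r := r) (D := D) (M := M) t
  rw [h0, map_zero] at h1
  have h2 : (fun i => (t (i, 0), t (i, 1)))
      = (fun i => (Complex.ofRealHom (P i).1, Complex.ofRealHom (P i).2)) := by
    funext i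
    simp [t]
  rw [h2, ← Amat_map Complex.ofRealHom P D M, ← Matrix.transpose_map, ← Matrix.map_mul,
    ← RingHom.mapMatrix_apply, ← RingHom.map_det] at h1
  have h3 := gram_det_ne_zero (Amat P D M) (amat_real_inj P hP hK)
  apply h3
  have : Complex.ofRealHom ((Amat P D M).transpose * Amat P D M).det = 0 := h1.symm
  exact Complex.ofReal_eq_zero.mp this

end Vale.Agent.Lib.P279
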