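import Vale.Agent.Lib.P279.Curve

/-!
Checkable certificates: polygons as lists of facets, with nonnegative linear combinations
proving the four point inequality on the exponents removed at each step.
-/

namespace Vale.Agent.Lib.P279

open Finset

/-- a facet `(a, b, e)` stands for the inequality `a x + b y ≤ e N`. -/
abbrev Facet := ℤ × ℤ × ℤ

/-- membership in the polygon with the given facets at scale `N`. -/
def InP (L : List Facet) (N : ℤ) (s : Pt) : Prop :=
  ∀ t ∈ L, t.1 * s.1 + t.2.1 * s.2 ≤ t.2.2 * N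

instance (L : List Facet) (N : ℤ) (s : Pt) : Decidable (InP L N s) := by
  unfold InP; infer_instance

/-- exponents in the triangle of degree `D` within the polygon. -/
noncomputable def Sp (D : ℕ) (L : List Facet) (N : ℕ) : Finset Pt :=
  (T D).filter (InP L (N : ℤ))

lemma mem_Sp {D : ℕ} {L : List Facet} {N : ℕ} {s : Pt} :
    s ∈ Sp D L N ↔ s ∈ T D ∧ InP L (N : ℤ) s := by
  simp only [Sp, mem_filter]

/-- the nonnegative combination of facets. -/
def combo : List Facet → List ℕ → Facet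
  | t :: L, y :: ys =>
      let c := combo L ys
      ((y : ℤ) * t.1 + c.1, (y : ℤ) * t.2.1 + c.2.1, (y : ℤ) * t.2.2 + c.2.2)
  | _, _ => (0, 0, 0)

lemma combo_le {L : List Facet} (y : List ℕ) {N : ℤ} {s : Pt} (h : InP L N s) :
    (combo L y).1 * s.1 + (combo L y).2.1 * s.2 ≤ (combo L y).2.2 * N := by
  induction L generalizing y with
  | nil => simp [combo]
  | cons t L ih =>
    cases y with
    | nil => simp [combo]
    | cons y ys =>
      have h1 : t.1 * s.1 + t.2.1 * s.2 ≤ t.2.2 * N := h t (by simp)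
      have h2 := ih ys (fun t' ht' => h t' (by simp [ht']))
      simp only [combo]
      have h3 : (y : ℤ) * (t.1 * s.1 + t.2.1 * s.2) ≤ (y : ℤ) * (t.2.2 * N) :=
        mul_le_mul_of_nonneg_left h1 (by positivity)
      nlinarith

/-- a certificate for one inequality. -/
structure Cert where
  yu : List ℕ
  yw : List ℕ
  yv : List ℕ
  yz : List ℕ
  z1 : ℕ
  z2 : ℕ
  z3 : ℕ
  t1 : ℕ
  t2 : ℕ
  t3 : ℕ
  m1 : ℤ
  m2 : ℤ

/-- the identities that a certificate has to satisfy. -/
def Cert.ok (c : Cert) (P : List Facet) (f g : Pt) (q : ℕ) (v : Facet) : Prop :=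
  let U := combo P c.yu
  let W := combo P c.yw
  let V := combo P c.yv
  let Z := combo P c.yz
  let z1 : ℤ := c.z1
  let z2 : ℤ := c.z2
  let z3 : ℤ := c.z3
  let t1 : ℤ := c.t1
  let t2 : ℤ := c.t2
  let t3 : ℤ := c.t3
  U.1 = z1 * v.1 + (z2 + z3 + t2 + c.m1) * f.1 + (z2 + t1) * g.1 ∧
  U.2.1 = z1 * v.2.1 + (z2 + z3 + t2 + c.m1) * f.2 + (z2 + t1) * g.2 ∧
  W.1 = - (c.m1 * f.1) - (z2 + t1) * g.1 ∧
  W.2.1 = - (c.m1 * f.2) - (z2 + t1) * g.2 ∧
  V.1 = - ((z2 + z3 + t2 + c.m2) * f.1) - (z3 + t3) * g.1 ∧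
  V.2.1 = - ((z2 + z3 + t2 + c.m2) * f.2) - (z3 + t3) * g.2 ∧
  Z.1 = c.m2 * f.1 + (z3 + t3) * g.1 ∧
  Z.2.1 = c.m2 * f.2 + (z3 + t3) * g.2 ∧
  U.2.2 + W.2.2 + V.2.2 + Z.2.2 ≤ z1 * v.2.2 + (z2 + z3) * (q : ℤ) ∧
  0 < z1 + z2 + z3

instance (c : Cert) (P : List Facet) (f g : Pt) (q : ℕ) (v : Facet) :
    Decidable (c.ok P f g q v) := by
  unfold Cert.ok; infer_instance

/-- the core contradiction. -/
theorem Cert.core {c : Cert} {P : List Facet} {f g : Pt} {q : ℕ} {v : Facet}
    (hc : c.ok P f g q v) {N : ℕ} {u w a b : Pt}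
    (hu : InP P (N : ℤ) u) (hw : InP P (N : ℤ) w) (ha : InP P (N : ℤ) a) (hb : InP P (N : ℤ) b)
    (hv : c.z1 = 0 ∨ v.2.2 * (N : ℤ) + 1 ≤ v.1 * u.1 + v.2.1 * u.2)
    (h1 : lin f w = lin f u) (h2 : lin g w ≤ lin g u)
    (h3 : lin f a = lin f b) (h4 : lin f a ≤ lin f u) (h5 : lin g a ≤ lin g b)
    (hA : (q : ℤ) * N + 1 ≤ lin f u - lin f a + (lin g u - lin g w))
    (hB : (q : ℤ) * N + 1 ≤ lin f u - lin f a + (lin g b - lin g a)) : False := by
  obtain ⟨e1, e2, e3, e4, e5, e6, e7, e8, e9, e10⟩ := hc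
  have hU := combo_le c.yu hu
  have hW := combo_le c.yw hw
  have hV := combo_le c.yv ha
  have hZ := combo_le c.yz hb
  simp only [lin] at h1 h2 h3 h4 h5 hA hB
  set z1 : ℤ := ((c.z1 : ℕ) : ℤ) with hz1
  set z2 : ℤ := ((c.z2 : ℕ) : ℤ) with hz2
  set z3 : ℤ := ((c.z3 : ℕ) : ℤ) with hz3
  set t1 : ℤ := ((c.t1 : ℕ) : ℤ) with ht1
  set t2 : ℤ := ((c.t2 : ℕ) : ℤ) with ht2
  set t3 : ℤ := ((c.t3 : ℕ) : ℤ) with ht3
  have z1p : 0 ≤ z1 := by positivity
  have z2p : 0 ≤ z2 := by positivity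
  have z3p : 0 ≤ z3 := by positivity
  have t1p : 0 ≤ t1 := by positivity
  have t2p : 0 ≤ t2 := by positivity
  have t3p : 0 ≤ t3 := by positivity
  have hV1 : z1 * (v.2.2 * (N : ℤ) + 1) ≤ z1 * (v.1 * u.1 + v.2.1 * u.2) := by
    rcases hv with hv | hv
    · have : z1 = 0 := by rw [hz1, hv]; simp
      rw [this]; simp
    · exact mul_le_mul_of_nonneg_left hv z1p
  have hA' := mul_le_mul_of_nonneg_left hA z2p
  have hB' := mul_le_mul_of_nonneg_left hB z3p
  have h2' := mul_le_mul_of_nonneg_left h2 t1p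
  have h4' := mul_le_mul_of_nonneg_left h4 t2p
  have h5' := mul_le_mul_of_nonneg_left h5 t3p
  have hN : (0 : ℤ) ≤ (N : ℤ) := by positivity
  have h9' := mul_le_mul_of_nonneg_right e9 hN
  have hsum : (combo P c.yu).1 * u.1 + (combo P c.yu).2.1 * u.2
      + ((combo P c.yw).1 * w.1 + (combo P c.yw).2.1 * w.2)
      + ((combo P c.yv).1 * a.1 + (combo P c.yv).2.1 * a.2)
      + ((combo P c.yz).1 * b.1 + (combo P c.yz).2.1 * b.2)
      ≤ (z1 * v.2.2 + (z2 + z3) * (q : ℤ)) * (N : ℤ) := by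
    calc _ ≤ (combo P c.yu).2.2 * N + (combo P c.yw).2.2 * N + (combo P c.yv).2.2 * N
          + (combo P c.yz).2.2 * N := by linarith
      _ = ((combo P c.yu).2.2 + (combo P c.yw).2.2 + (combo P c.yv).2.2 + (combo P c.yz).2.2) * N := by
          ring
      _ ≤ _ := h9'
  rw [e1, e2, e3, e4, e5, e6, e7, e8] at hsum
  have heq1 : c.m1 * (f.1 * w.1 + f.2 * w.2) = c.m1 * (f.1 * u.1 + f.2 * u.2) := by rw [h1]
  have heq2 : c.m2 * (f.1 * a.1 + f.2 * a.2) = c.m2 * (f.1 * b.1 + f.2 * b.2) := by rw [h3]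
  have hfinal : z1 + z2 + z3 ≤ 0 := by
    have hid : (z1 * v.1 + (z2 + z3 + t2 + c.m1) * f.1 + (z2 + t1) * g.1) * u.1
        + (z1 * v.2.1 + (z2 + z3 + t2 + c.m1) * f.2 + (z2 + t1) * g.2) * u.2
        + ((-(c.m1 * f.1) - (z2 + t1) * g.1) * w.1 + (-(c.m1 * f.2) - (z2 + t1) * g.2) * w.2)
        + ((-((z2 + z3 + t2 + c.m2) * f.1) - (z3 + t3) * g.1) * a.1
          + (-((z2 + z3 + t2 + c.m2) * f.2) - (z3 + t3) * g.2) * a.2)
        + ((c.m2 * f.1 + (z3 + t3) * g.1) * b.1 + (c.m2 * f.2 + (z3 + t3) * g.2) * b.2)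
        = z1 * (v.1 * u.1 + v.2.1 * u.2)
          + z2 * (f.1 * u.1 + f.2 * u.2 - (f.1 * a.1 + f.2 * a.2)
              + (g.1 * u.1 + g.2 * u.2 - (g.1 * w.1 + g.2 * w.2)))
          + z3 * (f.1 * u.1 + f.2 * u.2 - (f.1 * a.1 + f.2 * a.2)
              + (g.1 * b.1 + g.2 * b.2 - (g.1 * a.1 + g.2 * a.2)))
          + t1 * (g.1 * u.1 + g.2 * u.2 - (g.1 * w.1 + g.2 * w.2))
          + t2 * (f.1 * u.1 + f.2 * u.2 - (f.1 * a.1 + f.2 * a.2))
          + t3 * (g.1 * b.1 + g.2 * b.2 - (g.1 * a.1 + g.2 * a.2))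
          + (c.m1 * (f.1 * u.1 + f.2 * u.2) - c.m1 * (f.1 * w.1 + f.2 * w.2))
          + (c.m2 * (f.1 * b.1 + f.2 * b.2) - c.m2 * (f.1 * a.1 + f.2 * a.2)) := by ring
    rw [hid, heq1, heq2] at hsum
    have h2'' : 0 ≤ t1 * (g.1 * u.1 + g.2 * u.2 - (g.1 * w.1 + g.2 * w.2)) := by
      apply mul_nonneg t1p; linarith
    have h4'' : 0 ≤ t2 * (f.1 * u.1 + f.2 * u.2 - (f.1 * a.1 + f.2 * a.2)) := by
      apply mul_nonneg t2p; linarith
    have h5'' : 0 ≤ t3 * (g.1 * b.1 + g.2 * b.2 - (g.1 * a.1 + g.2 * a.2)) := by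
      apply mul_nonneg t3p; linarith
    linarith only [hsum, hV1, hA', hB', h2'', h4'', h5'']
  omega

/-- a checked step removes all exponents that leave the polygon. -/
theorem fp_of_cert {c : Cert} {P : List Facet} {f g : Pt} {q : ℕ} {v : Facet}
    (hc : c.ok P f g q v) {D N : ℕ} {u : Pt}
    (hu : u ∈ Sp D P N)
    (hv : c.z1 = 0 ∨ v.2.2 * (N : ℤ) + 1 ≤ v.1 * u.1 + v.2.1 * u.2) :
    FP (Sp D P N) f g (q * N + 1) u := by
  intro w hw h1 h2 a ha b hb h3 h4 h5
  by_contra hcon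
  rw [not_or] at hcon
  obtain ⟨hA, hB⟩ := hcon
  push_cast at hA hB
  exact Cert.core hc (mem_Sp.mp hu).2 (mem_Sp.mp hw).2 (mem_Sp.mp ha).2 (mem_Sp.mp hb).2 hv
    h1 h2 h3 h4 h5 (by omega) (by omega)

/-- a frame with nonzero determinant separates points. -/
lemma separates_of_det {f g : Pt} (h : f.1 * g.2 - f.2 * g.1 ≠ 0) : Separates f g := by
  intro s t h1 h2
  simp only [lin] at h1 h2
  have e1 : (f.1 * g.2 - f.2 * g.1) * (s.1 - t.1) = 0 := by
    linear_combination g.2 * h1 - f.2 * h2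
  have e2 : (f.1 * g.2 - f.2 * g.1) * (s.2 - t.2) = 0 := by
    linear_combination - g.1 * h1 + f.1 * h2
  have e3 := (mul_eq_zero.mp e1).resolve_left h
  have e4 := (mul_eq_zero.mp e2).resolve_left h
  ext
  · linarith
  · linarith

/-- one step of a chain: a frame, the next polygon, and one certificate for each of its facets. -/
structure Step where
  f : Pt
  g : Pt
  P : List Facet
  cs : List Cert

/-- certificates for all facets of the next polygon. -/
def allOK (P : List Facet) (f g : Pt) (q : ℕ) : List Facet → List Cert → Prop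
  | [], _ => True
  | _ :: _, [] => False
  | v :: L, c :: cs => c.ok P f g q v ∧ allOK P f g q L cs

instance (P : List Facet) (f g : Pt) (q : ℕ) (L : List Facet) (cs : List Cert) :
    Decidable (allOK P f g q L cs) := by
  induction L generalizing cs with
  | nil => unfold allOK; infer_instance
  | cons v L ih =>
    cases cs with
    | nil => unfold allOK; infer_instance
    | cons c cs =>
      have := ih cs
      unfold allOK; infer_instance

lemma fp_of_allOK {P L : List Facet} {f g : Pt} {q : ℕ} {cs : List Cert}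
    (h : allOK P f g q L cs) {D N : ℕ} {u : Pt} (hu : u ∈ Sp D P N) (hu' : u ∉ Sp D L N) :
    FP (Sp D P N) f g (q * N + 1) u := by
  have hnot : ¬ InP L (N : ℤ) u := fun hh =>
    hu' (mem_Sp.mpr ⟨(mem_Sp.mp hu).1, hh⟩)
  induction L generalizing cs with
  | nil => exact absurd (by intro t ht; simp at ht) hnot
  | cons v L ih =>
    cases cs with
    | nil => exact h.elim
    | cons c cs =>
      obtain ⟨h1, h2⟩ := h
      by_cases hv : v.1 * u.1 + v.2.1 * u.2 ≤ v.2.2 * (N : ℤ)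
      · refine ih h2 ?_ ?_
        · intro hh
          exact hu' (mem_Sp.mpr ⟨(mem_Sp.mp hu).1, fun t ht => by
            rcases List.mem_cons.mp ht with rfl | ht
            · exact hv
            · exact (mem_Sp.mp hh).2 t ht⟩)
        · intro hh
          apply hnot
          intro t ht
          rcases List.mem_cons.mp ht with rfl | ht
          · exact hv
          · exact hh t ht
      · exact fp_of_cert h1 hu (Or.inr (by omega))

/-- validity of a chain from a given polygon, ending with a final certificate. -/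
def chainOK (q : ℕ) (last : Pt × Pt × Cert) : List Facet → List Step → Prop
  | P, [] => last.1.1 * last.2.1.2 - last.1.2 * last.2.1.1 ≠ 0 ∧
      last.2.2.ok P last.1 last.2.1 q (0, 0, 0) ∧ last.2.2.z1 = 0
  | P, st :: sts => st.f.1 * st.g.2 - st.f.2 * st.g.1 ≠ 0 ∧
      allOK P st.f st.g q st.P st.cs ∧ chainOK q last st.P sts

instance (q : ℕ) (last : Pt × Pt × Cert) (P : List Facet) (sts : List Step) :
    Decidable (chainOK q last P sts) := by
  induction sts generalizing P with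
  | nil => unfold chainOK; infer_instance
  | cons st sts ih =>
    have := ih st.P
    unfold chainOK; infer_instance

theorem kill_of_chain {q : ℕ} {last : Pt × Pt × Cert} {P : List Facet} {sts : List Step}
    (h : chainOK q last P sts) (D N : ℕ) : Kill (Sp D P N) (sts.length + 1) (q * N + 1) := by
  induction sts generalizing P with
  | nil =>
    obtain ⟨h0, h1, h2⟩ := h
    refine reduce (S' := ∅) (separates_of_det h0) ?_ (kill_empty _)
    intro u hu _
    exact fp_of_cert h1 hu (Or.inl h2)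
  | cons st sts ih =>
    obtain ⟨h0, h1, h2⟩ := h
    refine reduce (S' := Sp D st.P N) (separates_of_det h0) ?_ (ih h2)
    intro u hu hu'
    exact fp_of_allOK h1 hu hu'

/-- the facets of the initial triangle of side `p`. -/
def tri (p : ℕ) : List Facet := [(0, -1, 0), (1, 1, (p : ℤ)), (-1, 0, 0)]

theorem kill_T_of_chain {p q : ℕ} {last : Pt × Pt × Cert} {sts : List Step}
    (h : chainOK q last (tri p) sts) (N : ℕ) :
    Kill (T (p * N)) (sts.length + 1) (q * N + 1) := by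
  refine (kill_of_chain h (p * N) N).mono ?_
  intro s hs
  refine mem_Sp.mpr ⟨hs, ?_⟩
  have := mem_T.mp hs
  intro t ht
  simp only [tri, List.mem_cons, List.not_mem_nil, or_false] at ht
  rcases ht with rfl | rfl | rfl
  · simp only; omega
  · simp only; push_cast at this; omega
  · simp only; omega

end Vale.Agent.Lib.P279
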