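import Vale.Agent.Lib.P279.Bridge

namespace Vale.Agent.Lib.P279

open Finset

/-- the exponent vector of degree `D` attached to a planar exponent. -/
noncomputable def mon (D : ℕ) (s : Pt) : Fin 3 →₀ ℕ :=
  Finsupp.equivFunOnFinite.symm ![s.1.toNat, s.2.toNat, D - s.1.toNat - s.2.toNat]

lemma mon_zero (D : ℕ) (s : Pt) : mon D s 0 = s.1.toNat := by simp [mon]
lemma mon_one (D : ℕ) (s : Pt) : mon D s 1 = s.2.toNat := by simp [mon]
lemma mon_two (D : ℕ) (s : Pt) : mon D s 2 = D - s.1.toNat - s.2.toNat := by simp [mon]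

lemma sum_monomial_T {D : ℕ} {F : MvPolynomial (Fin 3) ℂ} (hF : F.IsHomogeneous D) :
    F = ∑ s ∈ T D, MvPolynomial.monomial (mon D s) (MvPolynomial.coeff (mon D s) F) := by
  classical
  ext e
  rw [MvPolynomial.coeff_sum]
  simp only [MvPolynomial.coeff_monomial]
  by_cases hdeg : e 0 + e 1 + e 2 = D
  · have hs0 : (((e 0 : ℕ) : ℤ), ((e 1 : ℕ) : ℤ)) ∈ T D := by
      rw [mem_T]
      simp only
      omega
    have hmon : mon D (((e 0 : ℕ) : ℤ), ((e 1 : ℕ) : ℤ)) = e := by
      ext i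
      fin_cases i
      · simp [mon_zero]
      · simp [mon_one]
      · simp only [Fin.reduceFinMk, mon_two, Int.toNat_natCast]
        omega
    rw [sum_eq_single_of_mem _ hs0]
    · rw [hmon]; simp
    · intro s hs hne
      rw [if_neg]
      intro h
      apply hne
      have hs' := mem_T.mp hs
      have h0 : s.1.toNat = e 0 := by rw [← h, mon_zero]
      have h1 : s.2.toNat = e 1 := by rw [← h, mon_one]
      ext
      · simp only; omega
      · simp only; omega
  · have h1 : MvPolynomial.coeff e F = 0 := by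
      apply hF.coeff_eq_zero
      rw [Finsupp.degree_eq_sum, Fin.sum_univ_three]
      exact hdeg
    rw [h1]
    symm
    apply sum_eq_zero
    intro s hs
    rw [if_neg]
    intro h
    apply hdeg
    have hs' := mem_T.mp hs
    rw [← h, mon_zero, mon_one, mon_two]
    omega

lemma foldl_zero (l : List (Fin 3)) :
    l.foldl (fun G i => MvPolynomial.pderiv i G) (0 : MvPolynomial (Fin 3) ℂ) = 0 := by
  induction l with
  | nil => rfl
  | cons i l ih => simpa only [List.foldl_cons, map_zero] using ih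

lemma foldl_sum {α : Type*} (A : Finset α) (f : α → MvPolynomial (Fin 3) ℂ) (l : List (Fin 3)) :
    l.foldl (fun G i => MvPolynomial.pderiv i G) (∑ i ∈ A, f i)
      = ∑ i ∈ A, l.foldl (fun G i => MvPolynomial.pderiv i G) (f i) := by
  classical
  induction A using Finset.induction_on with
  | empty => simpa using foldl_zero l
  | insert a A ha ih => rw [sum_insert ha, sum_insert ha, foldl_add, ih]

lemma eval_foldl_monomial (a b : ℕ) (e : Fin 3 →₀ ℕ) (c x y : ℂ) :
    MvPolynomial.eval ![x, y, 1] ((List.replicate a (0 : Fin 3) ++ List.replicate b (1 : Fin 3)).foldl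
        (fun G i => MvPolynomial.pderiv i G) (MvPolynomial.monomial e c))
      = c * ((e 0).descFactorial a : ℕ) * ((e 1).descFactorial b : ℕ)
          * x ^ (e 0 - a) * y ^ (e 1 - b) := by
  rw [List.foldl_append, foldl_replicate_monomial, foldl_replicate_monomial,
    MvPolynomial.eval_monomial, Finsupp.prod_fintype _ _ (by simp), Fin.prod_univ_three]
  have h1 : (e - a • Finsupp.single (0 : Fin 3) 1 : Fin 3 →₀ ℕ) 1 = e 1 := by
    show e 1 - (a • (Finsupp.single (0 : Fin 3) 1 : Fin 3 →₀ ℕ)) 1 = e 1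
    simp
  have h2 : ((e - a • Finsupp.single (0 : Fin 3) 1 - b • Finsupp.single (1 : Fin 3) 1 : Fin 3 →₀ ℕ)) 0
      = e 0 - a := by
    show (e 0 - (a • (Finsupp.single (0 : Fin 3) 1 : Fin 3 →₀ ℕ)) 0)
      - (b • (Finsupp.single (1 : Fin 3) 1 : Fin 3 →₀ ℕ)) 0 = e 0 - a
    simp
  have h3 : ((e - a • Finsupp.single (0 : Fin 3) 1 - b • Finsupp.single (1 : Fin 3) 1 : Fin 3 →₀ ℕ)) 1
      = e 1 - b := by
    show (e 1 - (a • (Finsupp.single (0 : Fin 3) 1 : Fin 3 →₀ ℕ)) 1)
      - (b • (Finsupp.single (1 : Fin 3) 1 : Fin 3 →₀ ℕ)) 1 = e 1 - b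
    simp
  rw [h1, h2, h3]
  simp
  ring

theorem coeff_kernel {r D M : ℕ} (τ : Fin r → ℂ × ℂ) {F : MvPolynomial (Fin 3) ℂ}
    (hF : F.IsHomogeneous D) (hm : ∀ i, MultGE F ![(τ i).1, (τ i).2, 1] M) :
    (Amat τ D M).mulVec (fun s => MvPolynomial.coeff (mon D s.1) F) = 0 := by
  funext ⟨l, a, b⟩
  simp only [Matrix.mulVec, dotProduct, Pi.zero_apply, Amat, entry]
  by_cases hab : (a : ℕ) + b < M
  · simp only [hab, if_true]
    have h1 := hm l (List.replicate a (0 : Fin 3) ++ List.replicate b (1 : Fin 3))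
      (by simpa using hab)
    rw [sum_monomial_T hF, foldl_sum, map_sum] at h1
    simp only [eval_foldl_monomial, mon_zero, mon_one] at h1
    rw [← sum_attach (T D)] at h1
    rw [← h1]
    apply sum_congr rfl
    intro s _
    ring
  · simp [hab]

theorem eq_zero_of_det {r D M : ℕ} (τ : Fin r → ℂ × ℂ) {F : MvPolynomial (Fin 3) ℂ}
    (hdet : ((Amat τ D M).transpose * Amat τ D M).det ≠ 0)
    (hF : F.IsHomogeneous D) (hm : ∀ i, MultGE F ![(τ i).1, (τ i).2, 1] M) : F = 0 := by
  have h1 := coeff_kernel τ hF hm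
  have h2 : ((Amat τ D M).transpose * Amat τ D M).mulVec
      (fun s => MvPolynomial.coeff (mon D s.1) F) = 0 := by
    rw [← Matrix.mulVec_mulVec, h1, Matrix.mulVec_zero]
  have h3 := Matrix.eq_zero_of_mulVec_eq_zero hdet h2
  rw [sum_monomial_T hF]
  apply sum_eq_zero
  intro s hs
  have := congrFun h3 ⟨s, hs⟩
  simp only [Pi.zero_apply] at this
  rw [this, map_zero]

/-- The general principle: kills at all scales give a lower bound on the degree. -/
theorem bound_of_kill {r p q : ℕ} (hK : ∀ N : ℕ, Kill (T (p * N)) r (q * N + 1)) :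
    ∃ G : ℕ → MvPolynomial (Fin r × Fin 2) ℂ, (∀ N, G N ≠ 0) ∧
      ∀ t : Fin r × Fin 2 → ℂ, (∀ N, MvPolynomial.eval t (G N) ≠ 0) →
        ∀ (d m : ℕ) (F : MvPolynomial (Fin 3) ℂ), F ≠ 0 → F.IsHomogeneous d →
          (∀ i, MultGE F ![t (i, 0), t (i, 1), 1] m) → p * m ≤ q * d := by
  refine ⟨fun N => Gpoly r (p * N) (q * N + 1), fun N => Gpoly_ne_zero (hK N), ?_⟩
  intro t ht d m F hF0 hF hm
  by_contra hlt
  have hlt := not_le.mp hlt
  -- scales
  have hm1 : 1 ≤ m := by
    rcases Nat.eq_zero_or_pos m with h | h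
    · subst h; simp at hlt
    · exact h
  set N := m * d with hN
  set k := q * d + 1 with hk
  have hkd : k * d ≤ p * N := by
    have : q * d + 1 ≤ p * m := hlt
    calc k * d = (q * d + 1) * d := by rw [hk]
      _ ≤ (p * m) * d := Nat.mul_le_mul_right d this
      _ = p * N := by rw [hN]; ring
  obtain ⟨E, hE⟩ := Nat.exists_eq_add_of_le hkd
  let H : MvPolynomial (Fin 3) ℂ := F ^ k * MvPolynomial.X 2 ^ E
  have hH0 : H ≠ 0 := mul_ne_zero (pow_ne_zero _ hF0) (pow_ne_zero _ (MvPolynomial.X_ne_zero _))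
  have hHh : H.IsHomogeneous (p * N) := by
    have h0 : (MvPolynomial.X 2 ^ E : MvPolynomial (Fin 3) ℂ).IsHomogeneous E := by
      have := (MvPolynomial.isHomogeneous_X ℂ (2 : Fin 3)).pow E
      simpa using this
    have h1 := (hF.pow k).mul h0
    rw [hE]
    convert h1 using 1
    ring
  have hHm : ∀ i, MultGE H ![t (i, 0), t (i, 1), 1] (q * N + 1) := by
    intro i
    have h1 := ((hm i).pow k).mul (MultGE.zero (MvPolynomial.X 2 ^ E) ![t (i, 0), t (i, 1), 1])
    refine h1.mono ?_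
    have : k * m = q * N + m := by rw [hk, hN]; ring
    omega
  have hdet := ht N
  rw [eval_Gpoly] at hdet
  exact hH0 (eq_zero_of_det (fun i => (t (i, 0), t (i, 1))) hdet hHh hHm)

end Vale.Agent.Lib.P279
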