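import Mathlib

namespace Vale.Agent.Lib.P279

/-- `F` has multiplicity at least `m` at `p`: every iterated partial derivative of `F`
of order less than `m` vanishes at `p`. -/
def MultGE (F : MvPolynomial (Fin 3) ℂ) (p : Fin 3 → ℂ) (m : ℕ) : Prop :=
  ∀ l : List (Fin 3), l.length < m →
    MvPolynomial.eval p (l.foldl (fun G i => MvPolynomial.pderiv i G) F) = 0

end Vale.Agent.Lib.P279
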