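import Vale.Agent.Lib.P279.Curve

/-!
From equal multiplicities to arbitrary multiplicities at very general points.

If a nonzero form with multiplicities `m i` exists at a very general tuple, then all maximal minors
of the polynomial matrix of the conditions vanish identically, so such a form exists at every tuple,
in particular with the multiplicities permuted cyclically.  The product over all cyclic shifts has
equal multiplicity `∑ m i` at every point.
-/

namespace Vale.Agent.Lib.P279

open MvPolynomial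

/-- a family of row vectors with trivial common kernel contains a square invertible matrix. -/
theorem exists_minor {ι κ K : Type*} [Fintype κ] [DecidableEq κ] [Field K] (A : ι → κ → K)
    (h : ∀ x : κ → K, (∀ i, ∑ s, A i s * x s = 0) → x = 0) :
    ∃ f : κ → ι, (Matrix.of (fun k => A (f k))).det ≠ 0 := by
  have hspan : Submodule.span K (Set.range A) = ⊤ := by
    by_contra hne
    obtain ⟨φ, hφ0, hφ⟩ :=
      Submodule.exists_le_ker_of_lt_top _ (lt_top_iff_ne_top.mpr hne)
    let x : κ → K := fun s => φ (Pi.single s 1)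
    have hφx : ∀ v, φ v = ∑ s, v s * x s := by
      intro v
      have hv : v = ∑ s, v s • (Pi.single s (1 : K) : κ → K) := by
        funext a
        simp [Finset.sum_apply, Pi.single_apply]
      conv_lhs => rw [hv]
      rw [map_sum]
      simp only [map_smul, smul_eq_mul, x]
    have hx : x = 0 := by
      apply h
      intro i
      rw [← hφx]
      exact hφ (Submodule.subset_span ⟨i, rfl⟩)
    apply hφ0
    ext v
    simp [hφx, hx]
  obtain ⟨b, hb, hbspan, hbli⟩ := exists_linearIndependent K (Set.range A)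
  rw [hspan] at hbspan
  let B := Module.Basis.mk hbli (by rw [Subtype.range_coe_subtype]; exact hbspan.ge)
  have : Fintype b := Module.Basis.fintypeIndexOfRankLtAleph0 B
    (Module.rank_lt_aleph0 K (κ → K))
  have hcard : Fintype.card κ = Fintype.card b := by
    have h1 := Module.finrank_eq_card_basis B
    simpa using h1
  let e : κ ≃ b := Fintype.equivOfCardEq hcard
  have hf : ∀ k, ∃ i, A i = (e k : κ → K) := fun k => hb (e k).2
  choose f hf using hf
  refine ⟨f, ?_⟩
  have hli : LinearIndependent K (fun k => A (f k)) := by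
    have : (fun k => A (f k)) = ((↑) : b → κ → K) ∘ e := by
      funext k
      exact hf k
    rw [this]
    exact hbli.comp _ e.injective
  have hu := (Matrix.linearIndependent_rows_iff_isUnit (A := Matrix.of (fun k => A (f k)))).mp hli
  exact ((Matrix.isUnit_iff_isUnit_det _).mp hu).ne_zero

lemma eval_aeval {σ τ : Type*} (t : τ → ℂ) (g : σ → MvPolynomial τ ℂ) (p : MvPolynomial σ ℂ) :
    eval t (aeval g p) = eval (fun k => eval t (g k)) p := by
  induction p using MvPolynomial.induction_on with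
  | C a => simp
  | add p q hp hq => rw [map_add, map_add, map_add, hp, hq]
  | mul_X p i hp => rw [map_mul, map_mul, map_mul, hp, aeval_X, eval_X]

/-- rows of the matrix of conditions. -/
abbrev Row (r : ℕ) (m : Fin r → ℕ) := Σ i : Fin r, {l : List (Fin 3) // l.length < m i}

/-- the point with index `i` with generic coordinates. -/
noncomputable def ptPoly {r : ℕ} (i : Fin r) : Fin 3 → MvPolynomial (Fin r × Fin 2) ℂ :=
  ![X (i, 0), X (i, 1), 1]

/-- the entries of the matrix of conditions as polynomials in the coordinates of the points. -/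
noncomputable def polyEntry {r : ℕ} (D : ℕ) (m : Fin r → ℕ) (ρ : Row r m) (s : ↥(T D)) :
    MvPolynomial (Fin r × Fin 2) ℂ :=
  aeval (ptPoly ρ.1) (ρ.2.1.foldl (fun G i => pderiv i G) (monomial (mon D s.1) (1 : ℂ)))

/-- the point with index `i` of the tuple `t`. -/
def ptOf {r : ℕ} (t : Fin r × Fin 2 → ℂ) (i : Fin r) : Fin 3 → ℂ := ![t (i, 0), t (i, 1), 1]

lemma eval_ptPoly {r : ℕ} (t : Fin r × Fin 2 → ℂ) (i : Fin r) :
    (fun k => eval t (ptPoly i k)) = ptOf t i := by
  funext k
  fin_cases k <;> simp [ptPoly, ptOf]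

lemma eval_polyEntry {r : ℕ} (D : ℕ) (m : Fin r → ℕ) (t : Fin r × Fin 2 → ℂ) (ρ : Row r m)
    (s : ↥(T D)) :
    eval t (polyEntry D m ρ s)
      = eval (ptOf t ρ.1) (ρ.2.1.foldl (fun G i => pderiv i G) (monomial (mon D s.1) (1 : ℂ))) := by
  rw [polyEntry, eval_aeval, eval_ptPoly]

/-- the form with coefficient vector `x`. -/
noncomputable def formOf {D : ℕ} (x : ↥(T D) → ℂ) : MvPolynomial (Fin 3) ℂ :=
  ∑ s : ↥(T D), monomial (mon D s.1) (x s)

lemma foldl_smul' (l : List (Fin 3)) (c : ℂ) (G : MvPolynomial (Fin 3) ℂ) :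
    l.foldl (fun G i => pderiv i G) (c • G) = c • l.foldl (fun G i => pderiv i G) G := by
  induction l generalizing G with
  | nil => rfl
  | cons i l ih =>
    simp only [List.foldl_cons]
    rw [(pderiv i).map_smul]
    exact ih _

lemma eval_foldl_formOf {D : ℕ} (x : ↥(T D) → ℂ) (l : List (Fin 3)) (p : Fin 3 → ℂ) :
    eval p (l.foldl (fun G i => pderiv i G) (formOf x))
      = ∑ s, eval p (l.foldl (fun G i => pderiv i G) (monomial (mon D s.1) (1 : ℂ))) * x s := by
  rw [formOf, foldl_sum, map_sum]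
  apply Finset.sum_congr rfl
  intro s _
  have : (monomial (mon D s.1) (x s) : MvPolynomial (Fin 3) ℂ)
      = x s • monomial (mon D s.1) (1 : ℂ) := by
    rw [smul_monomial]
    simp
  rw [this, foldl_smul', smul_eval, mul_comm]

lemma formOf_coeff {D : ℕ} (F : MvPolynomial (Fin 3) ℂ) (hF : F.IsHomogeneous D) :
    formOf (fun s : ↥(T D) => coeff (mon D s.1) F) = F := by
  rw [formOf]
  conv_rhs => rw [sum_monomial_T hF]
  exact (Finset.sum_attach (T D) (fun s => monomial (mon D s) (coeff (mon D s) F))).symm ▸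
    (by simp [Finset.univ_eq_attach])

lemma mon_inj {D : ℕ} {s s' : ℤ × ℤ} (hs : s ∈ T D) (hs' : s' ∈ T D) (h : mon D s = mon D s') :
    s = s' := by
  have h0 := DFunLike.congr_fun h 0
  have h1 := DFunLike.congr_fun h 1
  rw [mon_zero, mon_zero] at h0
  rw [mon_one, mon_one] at h1
  have a := mem_T.mp hs
  have b := mem_T.mp hs'
  ext <;> omega

lemma coeff_formOf {D : ℕ} (x : ↥(T D) → ℂ) (s0 : ↥(T D)) :
    coeff (mon D s0.1) (formOf x) = x s0 := by
  classical
  rw [formOf, coeff_sum]
  simp only [coeff_monomial]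
  rw [Finset.sum_eq_single s0]
  · simp
  · intro b _ hb
    rw [if_neg]
    intro h
    exact hb (Subtype.ext (mon_inj b.2 s0.2 h))
  · simp

lemma formOf_homog {D : ℕ} (x : ↥(T D) → ℂ) : (formOf x).IsHomogeneous D := by
  apply IsHomogeneous.sum
  intro s _
  apply isHomogeneous_monomial
  have a := mem_T.mp s.2
  rw [Finsupp.degree_eq_sum, Fin.sum_univ_three, mon_zero, mon_one, mon_two]
  omega

/-- the polynomial attached to degree `D` and multiplicities `m`: a nonzero maximal minor, if any. -/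
noncomputable def minorPoly {r : ℕ} (D : ℕ) (m : Fin r → ℕ) : MvPolynomial (Fin r × Fin 2) ℂ :=
  open Classical in
  if h : ∃ f : ↥(T D) → Row r m, (Matrix.of (fun k => polyEntry D m (f k))).det ≠ 0
  then (Matrix.of (fun k => polyEntry D m (h.choose k))).det else 1

lemma minorPoly_ne_zero {r : ℕ} (D : ℕ) (m : Fin r → ℕ) : minorPoly D m ≠ 0 := by
  classical
  rw [minorPoly]
  split_ifs with h
  · exact h.choose_spec
  · exact one_ne_zero

lemma eval_det_entries {r : ℕ} (D : ℕ) (m : Fin r → ℕ) (t : Fin r × Fin 2 → ℂ)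
    (f : ↥(T D) → Row r m) :
    eval t (Matrix.of (fun k => polyEntry D m (f k))).det
      = (Matrix.of (fun k s => eval t (polyEntry D m (f k) s))).det := by
  rw [RingHom.map_det]
  rfl

/-- if a form exists at a point where `minorPoly` does not vanish, all minors vanish identically. -/
theorem minors_vanish {r : ℕ} {D : ℕ} {m : Fin r → ℕ} {t : Fin r × Fin 2 → ℂ}
    (ht : eval t (minorPoly D m) ≠ 0) {F : MvPolynomial (Fin 3) ℂ} (hF0 : F ≠ 0)
    (hF : F.IsHomogeneous D) (hm : ∀ i, MultGE F (ptOf t i) (m i)) (f : ↥(T D) → Row r m) :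
    (Matrix.of (fun k => polyEntry D m (f k))).det = 0 := by
  classical
  by_contra hne
  have h : ∃ f : ↥(T D) → Row r m, (Matrix.of (fun k => polyEntry D m (f k))).det ≠ 0 := ⟨f, hne⟩
  rw [minorPoly, dif_pos h, eval_det_entries] at ht
  let x : ↥(T D) → ℂ := fun s => coeff (mon D s.1) F
  have hker : (Matrix.of (fun k s => eval t (polyEntry D m (h.choose k) s))).mulVec x = 0 := by
    funext k
    simp only [Matrix.mulVec, dotProduct, Matrix.of_apply, Pi.zero_apply, eval_polyEntry]
    have h1 := hm (h.choose k).1 (h.choose k).2.1 (h.choose k).2.2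
    rw [← formOf_coeff F hF, eval_foldl_formOf] at h1
    exact h1
  have hx := Matrix.eq_zero_of_mulVec_eq_zero ht hker
  apply hF0
  rw [← formOf_coeff F hF]
  have : (fun s : ↥(T D) => coeff (mon D s.1) F) = 0 := hx
  rw [this]
  simp [formOf]

/-- if all minors vanish identically, a form exists at every tuple. -/
theorem exists_form_of_minors {r : ℕ} {D : ℕ} {m : Fin r → ℕ}
    (h : ∀ f : ↥(T D) → Row r m, (Matrix.of (fun k => polyEntry D m (f k))).det = 0)
    (t : Fin r × Fin 2 → ℂ) :
    ∃ F : MvPolynomial (Fin 3) ℂ, F ≠ 0 ∧ F.IsHomogeneous D ∧ ∀ i, MultGE F (ptOf t i) (m i) := by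
  classical
  by_cases hk : ∀ x : ↥(T D) → ℂ, (∀ ρ : Row r m, ∑ s, eval t (polyEntry D m ρ s) * x s = 0) → x = 0
  · obtain ⟨f, hf⟩ := exists_minor (fun (ρ : Row r m) s => eval t (polyEntry D m ρ s)) hk
    exfalso
    apply hf
    have := eval_det_entries D m t f
    rw [h f, map_zero] at this
    exact this.symm
  · push_neg at hk
    obtain ⟨x, hx, hx0⟩ := hk
    refine ⟨formOf x, ?_, formOf_homog x, ?_⟩
    · intro h0
      apply hx0
      funext s
      have := coeff_formOf x s
      rw [h0, coeff_zero] at this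
      exact this.symm
    · intro i l hl
      rw [eval_foldl_formOf]
      have := hx ⟨i, ⟨l, hl⟩⟩
      simpa only [eval_polyEntry] using this

lemma MultGE.prod {ι : Type*} (s : Finset ι) (f : ι → MvPolynomial (Fin 3) ℂ) (a : ι → ℕ)
    (p : Fin 3 → ℂ) (h : ∀ j ∈ s, MultGE (f j) p (a j)) :
    MultGE (∏ j ∈ s, f j) p (∑ j ∈ s, a j) := by
  classical
  induction s using Finset.induction_on with
  | empty =>
    intro l hl
    simp at hl
  | insert j s hj ih =>
    rw [Finset.prod_insert hj, Finset.sum_insert hj]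
    exact MultGE.mul (h j (Finset.mem_insert_self j s))
      (ih fun k hk => h k (Finset.mem_insert_of_mem hk))

/-- arbitrary multiplicities from equal multiplicities. -/
theorem general_of_equal {r A B : ℕ} (hr : 0 < r)
    (hE : ∃ G : ℕ → MvPolynomial (Fin r × Fin 2) ℂ, (∀ N, G N ≠ 0) ∧
      ∀ t : Fin r × Fin 2 → ℂ, (∀ N, eval t (G N) ≠ 0) →
        ∀ (d m : ℕ) (F : MvPolynomial (Fin 3) ℂ), F ≠ 0 → F.IsHomogeneous d →
          (∀ i, MultGE F ![t (i, 0), t (i, 1), 1] m) → A * m ^ 2 ≤ B * d ^ 2) :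
    ∃ G : ℕ → MvPolynomial (Fin r × Fin 2) ℂ, (∀ N, G N ≠ 0) ∧
      ∀ t : Fin r × Fin 2 → ℂ, (∀ N, eval t (G N) ≠ 0) →
        ∀ (d : ℕ) (m : Fin r → ℕ) (F : MvPolynomial (Fin 3) ℂ), F ≠ 0 → F.IsHomogeneous d →
          (∀ i, MultGE F ![t (i, 0), t (i, 1), 1] (m i)) →
            A * (∑ i, m i) ^ 2 ≤ B * (r * d) ^ 2 := by
  classical
  haveI : NeZero r := ⟨hr.ne'⟩
  obtain ⟨G₀, hG₀, hE⟩ := hE
  let H : ℕ ⊕ (ℕ × (Fin r → ℕ)) → MvPolynomial (Fin r × Fin 2) ℂ :=
    Sum.elim G₀ (fun a => minorPoly a.1 a.2)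
  have hH : ∀ i, H i ≠ 0 := by
    rintro (i | a)
    · exact hG₀ i
    · exact minorPoly_ne_zero _ _
  obtain ⟨e, he⟩ := exists_surjective_nat (ℕ ⊕ (ℕ × (Fin r → ℕ)))
  refine ⟨fun N => H (e N), fun N => hH _, ?_⟩
  intro t ht d m F hF0 hF hm
  have htH : ∀ i, eval t (H i) ≠ 0 := by
    intro i
    obtain ⟨N, rfl⟩ := he i
    exact ht N
  have hm0 := minors_vanish (htH (Sum.inr (d, m))) hF0 hF hm
  -- the forms with shifted multiplicities
  have hj : ∀ j : Fin r, ∃ F' : MvPolynomial (Fin 3) ℂ, F' ≠ 0 ∧ F'.IsHomogeneous d ∧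
      ∀ k : Fin r, MultGE F' ![t (k, 0), t (k, 1), 1] (m (k + j)) := by
    intro j
    obtain ⟨F', h1, h2, h3⟩ := exists_form_of_minors hm0 (fun ic => t (ic.1 - j, ic.2))
    refine ⟨F', h1, h2, fun k => ?_⟩
    have := h3 (k + j)
    simpa [ptOf] using this
  choose Fj hFj0 hFjh hFjm using hj
  have h1 : (∏ j, Fj j) ≠ 0 := Finset.prod_ne_zero_iff.mpr fun j _ => hFj0 j
  have h2 : (∏ j, Fj j).IsHomogeneous (r * d) := by
    have := IsHomogeneous.prod Finset.univ Fj (fun _ => d) (fun j _ => hFjh j)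
    simpa using this
  have h3 : ∀ k : Fin r, MultGE (∏ j, Fj j) ![t (k, 0), t (k, 1), 1] (∑ i, m i) := by
    intro k
    have := MultGE.prod Finset.univ Fj (fun j => m (k + j)) ![t (k, 0), t (k, 1), 1]
      (fun j _ => hFjm j k)
    have hs : ∑ j, m (k + j) = ∑ i, m i := Equiv.sum_comp (Equiv.addLeft k) m
    rwa [hs] at this
  refine hE t (fun N => htH (Sum.inl N)) (r * d) (∑ i, m i) (∏ j, Fj j) h1 h2 h3

end Vale.Agent.Lib.P279
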