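import Vale.Agent.Lib.P279.Moments

/-!
Leading term obstruction: if the four point inequality holds at `u`,
no coefficient function of order `m` on `S` has lexicographic leading exponent `u`.
-/

namespace Vale.Agent.Lib.P279

open Finset

/-- the pair of integer linear forms separates points. -/
def Separates (f g : ℤ × ℤ) : Prop :=
  ∀ s t : Pt, lin f s = lin f t → lin g s = lin g t → s = t

/-- the four point inequality at `u`. -/
def FP (S : Finset Pt) (f g : ℤ × ℤ) (m : ℕ) (u : Pt) : Prop :=
  ∀ w ∈ S, lin f w = lin f u → lin g w ≤ lin g u →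
  ∀ v1 ∈ S, ∀ v2 ∈ S, lin f v1 = lin f v2 → lin f v1 ≤ lin f u → lin g v1 ≤ lin g v2 →
    (lin f u - lin f v1 + 1 + (lin g u - lin g w) ≤ (m : ℤ)) ∨
    (lin f u - lin f v1 + 1 + (lin g v2 - lin g v1) ≤ (m : ℤ))

/-- a finite set on which an integer function is injective has spread at least `card - 1`. -/
lemma exists_spread {α : Type*} (C : Finset α) (hC : C.Nonempty) (g : α → ℤ)
    (hinj : Set.InjOn g C) :
    ∃ a ∈ C, ∃ b ∈ C, (C.card : ℤ) - 1 ≤ g b - g a := by
  classical
  obtain ⟨a, ha, hamin⟩ := exists_min_image C g hC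
  obtain ⟨b, hb, hbmax⟩ := exists_max_image C g hC
  refine ⟨a, ha, b, hb, ?_⟩
  have hsub : C.image g ⊆ Finset.Icc (g a) (g b) := by
    intro y hy
    obtain ⟨z, hz, rfl⟩ := mem_image.mp hy
    exact mem_Icc.mpr ⟨hamin z hz, hbmax z hz⟩
  have hc := card_le_card hsub
  rw [card_image_of_injOn hinj, Int.card_Icc] at hc
  have hab : g a ≤ g b := hamin b hb
  omega

/-- Lagrange: vanishing power moments up to `j` on a column of size at most `j` force it empty. -/
lemma col_small_empty {α : Type*} [DecidableEq α] (C : Finset α) (c : α → ℝ) (g : α → ℤ)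
    (hinj : Set.InjOn g C) (hc : ∀ s ∈ C, c s ≠ 0) (j : ℕ)
    (hmom : ∀ l < j, ∑ s ∈ C, c s * ((g s : ℝ)) ^ l = 0) (hcard : C.card ≤ j) : C = ∅ := by
  classical
  by_contra hne
  obtain ⟨s0, hs0⟩ := nonempty_iff_ne_empty.mpr hne
  set R : Polynomial ℝ := ∏ t ∈ C.erase s0, (Polynomial.X - Polynomial.C ((g t : ℝ))) with hR
  have hdeg : R.natDegree < j := by
    rw [hR, Polynomial.natDegree_prod_of_monic _ _ (fun t _ => Polynomial.monic_X_sub_C _)]
    simp only [Polynomial.natDegree_X_sub_C, sum_const, smul_eq_mul, mul_one]
    rw [card_erase_of_mem hs0]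
    have : 0 < C.card := card_pos.mpr ⟨s0, hs0⟩
    omega
  have h1 : ∑ s ∈ C, c s * R.eval ((g s : ℝ)) = 0 := by
    have : ∀ s ∈ C, c s * R.eval ((g s : ℝ))
        = ∑ l ∈ range (R.natDegree + 1), R.coeff l * (c s * ((g s : ℝ)) ^ l) := by
      intro s _
      rw [Polynomial.eval_eq_sum_range, mul_sum]
      apply sum_congr rfl
      intro l _
      ring
    rw [sum_congr rfl this, sum_comm]
    apply sum_eq_zero
    intro l hl
    rw [← mul_sum, hmom l (by have := mem_range.mp hl; omega), mul_zero]
  have h2 : ∑ s ∈ C, c s * R.eval ((g s : ℝ)) = c s0 * R.eval ((g s0 : ℝ)) := by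
    apply sum_eq_single_of_mem s0 hs0
    intro t ht hts
    have : R.eval ((g t : ℝ)) = 0 := by
      rw [hR, Polynomial.eval_prod]
      apply prod_eq_zero (mem_erase.mpr ⟨hts, ht⟩)
      simp
    rw [this, mul_zero]
  rw [h2] at h1
  have h3 : R.eval ((g s0 : ℝ)) ≠ 0 := by
    rw [hR, Polynomial.eval_prod, prod_ne_zero_iff]
    intro t ht
    simp only [Polynomial.eval_sub, Polynomial.eval_X, Polynomial.eval_C]
    rw [sub_ne_zero]
    intro h
    have h' : g s0 = g t := by exact_mod_cast h
    exact (mem_erase.mp ht).1 (hinj hs0 (mem_of_mem_erase ht) h').symm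
  exact (mul_ne_zero (hc s0 hs0) h3) h1

theorem no_lead {S : Finset Pt} {c : Pt → ℝ} {m : ℕ} {f g : ℤ × ℤ} {u : Pt}
    (hsep : Separates f g) (hAnn : Ann S c m) (hu : u ∈ S) (hcu : c u ≠ 0)
    (hmax : ∀ s ∈ S, c s ≠ 0 → lin f s < lin f u ∨ (lin f s = lin f u ∧ lin g s ≤ lin g u))
    (hFP : FP S f g m u) : False := by
  classical
  set T : Finset Pt := S.filter (fun s => c s ≠ 0) with hT
  have hTS : ∀ s ∈ T, s ∈ S := fun s hs => (mem_filter.mp hs).1
  have hTc : ∀ s ∈ T, c s ≠ 0 := fun s hs => (mem_filter.mp hs).2
  have huT : u ∈ T := mem_filter.mpr ⟨hu, hcu⟩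
  let col : ℤ → Finset Pt := fun x => T.filter (fun s => lin f s = x)
  have hcolinj : ∀ x, Set.InjOn (fun s => lin g s) (col x : Set Pt) := by
    intro x a ha b hb hab
    have ha' := (mem_filter.mp (mem_coe.mp ha)).2
    have hb' := (mem_filter.mp (mem_coe.mp hb)).2
    exact hsep a b (ha'.trans hb'.symm) hab
  have hcolc : ∀ x, ∀ s ∈ col x, c s ≠ 0 := fun x s hs => hTc s (mem_filter.mp hs).1
  have huc : u ∈ col (lin f u) := mem_filter.mpr ⟨huT, rfl⟩
  -- the moment claim
  have key : ∀ j, j ≤ (col (lin f u)).card →
      ∀ x, ∀ l < j, ∑ s ∈ col x, c s * ((lin g s : ℝ)) ^ l = 0 := by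
    intro j
    induction j with
    | zero => intro _ x l hl; omega
    | succ j ih =>
      intro hj
      have hmom := ih (by omega)
      -- every nonempty column is long
      have hlong : ∀ x, (col x).Nonempty → j < (col x).card := by
        intro x hx
        by_contra hle
        have := col_small_empty (col x) c (fun s => lin g s) (hcolinj x) (hcolc x) j (hmom x)
          (by omega)
        rw [this] at hx
        simp at hx
      set F : Finset ℤ := T.image (lin f) with hF
      have hFcol : ∀ x ∈ F, (col x).Nonempty := by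
        intro x hx
        obtain ⟨s, hs, rfl⟩ := mem_image.mp hx
        exact ⟨s, mem_filter.mpr ⟨hs, rfl⟩⟩
      have huF : lin f u ∈ F := mem_image.mpr ⟨u, huT, rfl⟩
      have hFne : F.Nonempty := ⟨_, huF⟩
      set x1 := F.min' hFne with hx1
      have hx1F : x1 ∈ F := min'_mem F hFne
      have hx1le : ∀ x ∈ F, x1 ≤ x := fun x hx => min'_le F x hx
      have hFle : ∀ x ∈ F, x ≤ lin f u := by
        intro x hx
        obtain ⟨s, hs, rfl⟩ := mem_image.mp hx
        rcases hmax s (hTS s hs) (hTc s hs) with h | h
        · exact h.le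
        · exact h.1.le
      -- spreads
      obtain ⟨v1, hv1, v2, hv2, hv⟩ := exists_spread (col x1) (hFcol x1 hx1F)
        (fun s => lin g s) (hcolinj x1)
      have hx1long := hlong x1 (hFcol x1 hx1F)
      obtain ⟨w, hw, w', hw', hww⟩ := exists_spread (col (lin f u)) ⟨u, huc⟩
        (fun s => lin g s) (hcolinj (lin f u))
      have hulong := hlong (lin f u) ⟨u, huc⟩
      have hw'le : lin g w' ≤ lin g u := by
        have hw's := mem_filter.mp hw'
        rcases hmax w' (hTS w' hw's.1) (hTc w' hw's.1) with h | h
        · have := hw's.2; omega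
        · exact h.2
      have hwS := mem_filter.mp hw
      have hwle : lin g w ≤ lin g u := by
        have hws := mem_filter.mp hw
        rcases hmax w (hTS w hws.1) (hTc w hws.1) with h | h
        · have := hws.2; omega
        · exact h.2
      have hv1' := mem_filter.mp hv1
      have hv2' := mem_filter.mp hv2
      -- apply the hypothesis, after ordering v1 v2
      have hvorder : lin g v1 ≤ lin g v2 := by
        have : (j : ℤ) < ((col x1).card : ℤ) := by exact_mod_cast hx1long
        omega
      have hFP' := hFP w (hTS w hwS.1) hwS.2 hwle v1 (hTS v1 hv1'.1) v2 (hTS v2 hv2'.1)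
        (hv1'.2.trans hv2'.2.symm) (by rw [hv1'.2]; exact hFle x1 hx1F) hvorder
      rw [hv1'.2] at hFP'
      -- bound on the number of columns
      have hFcard : (F.card : ℤ) ≤ lin f u - x1 + 1 := by
        have hsub : F ⊆ Finset.Icc x1 (lin f u) := by
          intro x hx
          exact mem_Icc.mpr ⟨hx1le x hx, hFle x hx⟩
        have hc := card_le_card hsub
        rw [Int.card_Icc] at hc
        have hle : x1 ≤ lin f u := hFle x1 hx1F
        omega
      have hbound : F.card + j ≤ m := by
        have h1 : (j : ℤ) + 1 ≤ ((col (lin f u)).card : ℤ) := by exact_mod_cast hulong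
        have h2 : (j : ℤ) + 1 ≤ ((col x1).card : ℤ) := by exact_mod_cast hx1long
        have h3 : (F.card : ℤ) + j ≤ (m : ℤ) := by
          rcases hFP' with h | h <;> omega
        exact_mod_cast h3
      -- the new moment
      have hnew : ∀ x, ∑ s ∈ col x, c s * ((lin g s : ℝ)) ^ j = 0 := by
        intro x
        by_cases hxF : x ∈ F
        · -- test function
          let q : Pt → ℝ := fun s => (∏ y ∈ F.erase x, ((lin f s : ℝ) - (y : ℝ))) *
              (((lin g s : ℝ)) ^ j * (fun _ => (1 : ℝ)) s)
          have hq : q ∈ W m := by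
            have h0 := pow_lin_mem g j one_mem_W
            have h1 := prod_lin_mem f (F.erase x) h0
            refine W_mono ?_ h1
            rw [card_erase_of_mem hxF]
            have : 0 < F.card := card_pos.mpr ⟨x, hxF⟩
            omega
          have hzero := hAnn q hq
          have hres : ∑ s ∈ S, c s * q s = ∑ s ∈ col x, c s * q s := by
            symm
            apply sum_subset
            · intro s hs
              exact hTS s (mem_filter.mp hs).1
            · intro s hs hns
              by_cases hcs : c s = 0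
              · simp [hcs]
              · have hsT : s ∈ T := mem_filter.mpr ⟨hs, hcs⟩
                have hne : lin f s ≠ x := fun h => hns (mem_filter.mpr ⟨hsT, h⟩)
                have hmemF : lin f s ∈ F.erase x := mem_erase.mpr ⟨hne, mem_image.mpr ⟨s, hsT, rfl⟩⟩
                have : (∏ y ∈ F.erase x, ((lin f s : ℝ) - (y : ℝ))) = 0 :=
                  prod_eq_zero hmemF (by simp)
                simp only [q, this, zero_mul, mul_zero]
          rw [hres] at hzero
          have hcst : ∀ s ∈ col x, c s * q s
              = (∏ y ∈ F.erase x, ((x : ℝ) - (y : ℝ))) * (c s * ((lin g s : ℝ)) ^ j) := by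
            intro s hs
            have hfs : lin f s = x := (mem_filter.mp hs).2
            simp only [q, hfs, mul_one]
            ring
          rw [sum_congr rfl hcst, ← mul_sum] at hzero
          have hprod : (∏ y ∈ F.erase x, ((x : ℝ) - (y : ℝ))) ≠ 0 := by
            rw [prod_ne_zero_iff]
            intro y hy
            rw [sub_ne_zero]
            intro h
            have h' : x = y := by exact_mod_cast h
            exact (mem_erase.mp hy).1 h'.symm
          exact (mul_eq_zero.mp hzero).resolve_left hprod
        · have : col x = ∅ := by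
            apply filter_eq_empty_iff.mpr
            intro s hs h
            exact hxF (mem_image.mpr ⟨s, hs, h⟩)
          simp [this]
      intro x l hl
      by_cases hlj : l < j
      · exact hmom x l hlj
      · have : l = j := by omega
        rw [this]
        exact hnew x
  -- conclusion
  have hempty := col_small_empty (col (lin f u)) c (fun s => lin g s) (hcolinj _) (hcolc _) _
    (key _ le_rfl (lin f u)) le_rfl
  rw [hempty] at huc
  simp at huc

end Vale.Agent.Lib.P279
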