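import Mathlib

/-!
Moment calculus for monomial supports in the plane.
A finitely supported coefficient function `c` on a finite set `S` of exponents has order `m`
when it annihilates all polynomial functions of degree `< m` on the lattice.
-/

namespace Vale.Agent.Lib.P279

open Finset

abbrev Pt := ℤ × ℤ

/-- product of falling factorials in both coordinates; these span polynomial functions. -/
noncomputable def ff (i j : ℕ) (s : Pt) : ℝ :=
  (∏ k ∈ range i, ((s.1 : ℝ) - k)) * (∏ k ∈ range j, ((s.2 : ℝ) - k))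

/-- polynomial functions of total degree `< m` on the lattice. -/
noncomputable def W (m : ℕ) : Submodule ℝ (Pt → ℝ) :=
  Submodule.span ℝ {q | ∃ i j, i + j < m ∧ q = ff i j}

lemma ff_mem {i j m : ℕ} (h : i + j < m) : ff i j ∈ W m :=
  Submodule.subset_span ⟨i, j, h, rfl⟩

lemma W_mono {m n : ℕ} (h : m ≤ n) : W m ≤ W n := by
  apply Submodule.span_mono
  rintro q ⟨i, j, hij, rfl⟩
  exact ⟨i, j, by omega, rfl⟩

lemma one_mem_W : (fun _ => (1 : ℝ)) ∈ W 1 := by
  have : (fun _ : Pt => (1 : ℝ)) = ff 0 0 := by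
    funext s; simp [ff]
  rw [this]
  exact ff_mem (by omega)

lemma fst_mul_ff (i j : ℕ) :
    (fun s : Pt => (s.1 : ℝ) * ff i j s) = ff (i + 1) j + (i : ℝ) • ff i j := by
  funext s
  simp only [ff, Pi.add_apply, Pi.smul_apply, smul_eq_mul, prod_range_succ]
  ring

lemma snd_mul_ff (i j : ℕ) :
    (fun s : Pt => (s.2 : ℝ) * ff i j s) = ff i (j + 1) + (j : ℝ) • ff i j := by
  funext s
  simp only [ff, Pi.add_apply, Pi.smul_apply, smul_eq_mul, prod_range_succ]
  ring

lemma fst_mul_mem {m : ℕ} {q : Pt → ℝ} (hq : q ∈ W m) :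
    (fun s : Pt => (s.1 : ℝ) * q s) ∈ W (m + 1) := by
  induction hq using Submodule.span_induction with
  | mem q hq =>
    obtain ⟨i, j, hij, rfl⟩ := hq
    rw [fst_mul_ff]
    exact Submodule.add_mem _ (ff_mem (by omega)) (Submodule.smul_mem _ _ (ff_mem (by omega)))
  | zero =>
    have : (fun s : Pt => (s.1 : ℝ) * (0 : Pt → ℝ) s) = 0 := by funext s; simp
    rw [this]; exact Submodule.zero_mem _
  | add x y _ _ hx hy =>
    have : (fun s : Pt => (s.1 : ℝ) * (x + y) s)
        = (fun s : Pt => (s.1 : ℝ) * x s) + (fun s : Pt => (s.1 : ℝ) * y s) := by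
      funext s; simp [mul_add]
    rw [this]; exact Submodule.add_mem _ hx hy
  | smul a x _ hx =>
    have : (fun s : Pt => (s.1 : ℝ) * (a • x) s) = a • (fun s : Pt => (s.1 : ℝ) * x s) := by
      funext s; simp; ring
    rw [this]; exact Submodule.smul_mem _ _ hx

lemma snd_mul_mem {m : ℕ} {q : Pt → ℝ} (hq : q ∈ W m) :
    (fun s : Pt => (s.2 : ℝ) * q s) ∈ W (m + 1) := by
  induction hq using Submodule.span_induction with
  | mem q hq =>
    obtain ⟨i, j, hij, rfl⟩ := hq
    rw [snd_mul_ff]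
    exact Submodule.add_mem _ (ff_mem (by omega)) (Submodule.smul_mem _ _ (ff_mem (by omega)))
  | zero =>
    have : (fun s : Pt => (s.2 : ℝ) * (0 : Pt → ℝ) s) = 0 := by funext s; simp
    rw [this]; exact Submodule.zero_mem _
  | add x y _ _ hx hy =>
    have : (fun s : Pt => (s.2 : ℝ) * (x + y) s)
        = (fun s : Pt => (s.2 : ℝ) * x s) + (fun s : Pt => (s.2 : ℝ) * y s) := by
      funext s; simp [mul_add]
    rw [this]; exact Submodule.add_mem _ hx hy
  | smul a x _ hx =>
    have : (fun s : Pt => (s.2 : ℝ) * (a • x) s) = a • (fun s : Pt => (s.2 : ℝ) * x s) := by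
      funext s; simp; ring
    rw [this]; exact Submodule.smul_mem _ _ hx

/-- multiplying by an affine form raises the degree bound by one. -/
lemma affine_mul_mem {m : ℕ} {q : Pt → ℝ} (hq : q ∈ W m) (a b e : ℝ) :
    (fun s : Pt => (a * (s.1 : ℝ) + b * (s.2 : ℝ) + e) * q s) ∈ W (m + 1) := by
  have h1 := Submodule.smul_mem _ a (fst_mul_mem hq)
  have h2 := Submodule.smul_mem _ b (snd_mul_mem hq)
  have h3 := Submodule.smul_mem _ e (W_mono (Nat.le_succ m) hq)
  have : (fun s : Pt => (a * (s.1 : ℝ) + b * (s.2 : ℝ) + e) * q s)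
      = a • (fun s : Pt => (s.1 : ℝ) * q s) + b • (fun s : Pt => (s.2 : ℝ) * q s) + e • q := by
    funext s; simp; ring
  rw [this]
  exact Submodule.add_mem _ (Submodule.add_mem _ h1 h2) h3

/-- a coefficient function on `S` has order `m`. -/
def Ann (S : Finset Pt) (c : Pt → ℝ) (m : ℕ) : Prop :=
  ∀ q ∈ W m, ∑ s ∈ S, c s * q s = 0

lemma ann_of_ff {S : Finset Pt} {c : Pt → ℝ} {m : ℕ}
    (h : ∀ i j, i + j < m → ∑ s ∈ S, c s * ff i j s = 0) : Ann S c m := by
  intro q hq
  induction hq using Submodule.span_induction with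
  | mem q hq =>
    obtain ⟨i, j, hij, rfl⟩ := hq
    exact h i j hij
  | zero => simp
  | add x y _ _ hx hy =>
    simp only [Pi.add_apply, mul_add, sum_add_distrib, hx, hy, add_zero]
  | smul a x _ hx =>
    simp only [Pi.smul_apply, smul_eq_mul]
    calc ∑ s ∈ S, c s * (a * x s) = a * ∑ s ∈ S, c s * x s := by
          rw [mul_sum]; apply sum_congr rfl; intro s _; ring
      _ = 0 := by rw [hx, mul_zero]

/-- integer linear form. -/
def lin (f : ℤ × ℤ) (s : Pt) : ℤ := f.1 * s.1 + f.2 * s.2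

/-- product over a finset of integers of `(φ s - x)` lies in `W (card + 1)`. -/
lemma prod_lin_mem (f : ℤ × ℤ) (F : Finset ℤ) {m : ℕ} {q : Pt → ℝ} (hq : q ∈ W m) :
    (fun s : Pt => (∏ x ∈ F, ((lin f s : ℝ) - (x : ℝ))) * q s) ∈ W (m + F.card) := by
  classical
  induction F using Finset.induction_on with
  | empty => simpa using hq
  | insert x F hx ih =>
    rw [card_insert_of_notMem hx]
    have h := affine_mul_mem ih (f.1 : ℝ) (f.2 : ℝ) (-(x : ℝ))
    have e : (fun s : Pt => (∏ y ∈ insert x F, ((lin f s : ℝ) - (y : ℝ))) * q s)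
        = (fun s : Pt => ((f.1 : ℝ) * (s.1 : ℝ) + (f.2 : ℝ) * (s.2 : ℝ) + (-(x : ℝ))) *
            ((∏ y ∈ F, ((lin f s : ℝ) - (y : ℝ))) * q s)) := by
      funext s
      rw [prod_insert hx]
      simp only [lin]
      push_cast
      ring
    rw [e]
    have : m + (F.card + 1) = m + F.card + 1 := by omega
    rw [this]
    exact h

/-- powers of a linear form. -/
lemma pow_lin_mem (f : ℤ × ℤ) (j : ℕ) {m : ℕ} {q : Pt → ℝ} (hq : q ∈ W m) :
    (fun s : Pt => ((lin f s : ℝ)) ^ j * q s) ∈ W (m + j) := by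
  induction j with
  | zero => simpa using hq
  | succ j ih =>
    have h := affine_mul_mem ih (f.1 : ℝ) (f.2 : ℝ) 0
    have e : (fun s : Pt => ((lin f s : ℝ)) ^ (j + 1) * q s)
        = (fun s : Pt => ((f.1 : ℝ) * (s.1 : ℝ) + (f.2 : ℝ) * (s.2 : ℝ) + 0) *
            (((lin f s : ℝ)) ^ j * q s)) := by
      funext s
      simp only [lin]
      push_cast
      ring
    rw [e]
    have : m + (j + 1) = m + j + 1 := by omega
    rw [this]
    exact h

end Vale.Agent.Lib.P279
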