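import Vale.Agent.Lib.P279.Lead

/-!
The reduction step: a new very small point removes the exponents with the four point inequality.
-/

namespace Vale.Agent.Lib.P279

open Finset

/-- value at a torus point of the monomial with exponent `s`. -/
noncomputable def tw (p : ℝ × ℝ) (s : Pt) : ℝ := p.1 ^ s.1 * p.2 ^ s.2

/-- some `n` positive points have no nonzero polynomial with exponents in `S` and
multiplicity at least `m` at all of them (in moment form). -/
def Kill (S : Finset Pt) (n m : ℕ) : Prop :=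
  ∃ P : Fin n → ℝ × ℝ, (∀ i, 0 < (P i).1 ∧ 0 < (P i).2) ∧
    ∀ c : Pt → ℝ, (∀ i, Ann S (fun s => c s * tw (P i) s) m) → ∀ s ∈ S, c s = 0

lemma Kill.mono {S S' : Finset Pt} {n m : ℕ} (h : S' ⊆ S) (K : Kill S n m) : Kill S' n m := by
  classical
  obtain ⟨P, hP, hK⟩ := K
  refine ⟨P, hP, ?_⟩
  intro c hc s hs
  have := hK (fun s => if s ∈ S' then c s else 0) ?_ s (h hs)
  · simpa [hs] using this
  · intro i q hq
    have h1 := hc i q hq
    rw [← sum_subset h (fun t _ ht => by simp [ht])]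
    rw [← h1]
    apply sum_congr rfl
    intro t ht
    simp [ht]

lemma kill_empty (m : ℕ) : Kill ∅ 0 m :=
  ⟨fun i => i.elim0, fun i => i.elim0, fun _ _ s hs => by simp at hs⟩

/-- a test function with triangular vanishing, from the leading term obstruction. -/
theorem exists_test {S : Finset Pt} {m : ℕ} {f g : ℤ × ℤ} {u : Pt}
    (hsep : Separates f g) (hu : u ∈ S) (hFP : FP S f g m u) (ω : Pt → ℤ)
    (hω : ∀ s ∈ S, ω s ≤ ω u →
      lin f s < lin f u ∨ (lin f s = lin f u ∧ lin g s ≤ lin g u)) :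
    ∃ q ∈ W m, q u = 1 ∧ ∀ t ∈ S, ω t < ω u → q t = 0 := by
  classical
  by_contra hcon
  set Ω : Finset Pt := S.filter (fun s => ω s ≤ ω u) with hΩ
  have huΩ : u ∈ Ω := mem_filter.mpr ⟨hu, le_rfl⟩
  let E := (↥Ω → ℝ)
  let Res : W m →ₗ[ℝ] E :=
    { toFun := fun q t => (q : Pt → ℝ) t.1
      map_add' := fun _ _ => rfl
      map_smul' := fun _ _ => rfl }
  let δ : E := Pi.single ⟨u, huΩ⟩ 1
  have hδ : δ ∉ LinearMap.range Res := by
    rintro ⟨q, hq⟩
    apply hcon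
    refine ⟨q, q.2, ?_, ?_⟩
    · have := congrFun hq ⟨u, huΩ⟩
      simpa [δ, Res] using this
    · intro t ht hlt
      have htΩ : t ∈ Ω := mem_filter.mpr ⟨ht, hlt.le⟩
      have := congrFun hq ⟨t, htΩ⟩
      have hne : (⟨t, htΩ⟩ : ↥Ω) ≠ ⟨u, huΩ⟩ := by
        intro h
        have : t = u := congrArg Subtype.val h
        rw [this] at hlt
        exact lt_irrefl _ hlt
      simpa [δ, Res, Pi.single_eq_of_ne hne] using this
  obtain ⟨ℓ, hℓ, hker⟩ := Submodule.exists_le_ker_of_notMem hδ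
  let d : ↥Ω → ℝ := fun t => ℓ (Pi.single t 1)
  have hℓsum : ∀ e : E, ℓ e = ∑ t : ↥Ω, e t * d t := by
    intro e
    rw [LinearMap.pi_apply_eq_sum_univ ℓ e]
    apply sum_congr rfl
    intro t _
    simp only [d, smul_eq_mul]
    congr 2
    funext x
    simp [Pi.single_apply, eq_comm]
  let c : Pt → ℝ := fun s => if h : s ∈ Ω then d ⟨s, h⟩ else 0
  have hcu : c u ≠ 0 := by
    have : c u = ℓ δ := by
      simp only [c, huΩ, dite_true, d, δ]
    rw [this]
    exact hℓ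
  have hAnn : Ann S c m := by
    intro q hq
    have hz : ℓ (Res ⟨q, hq⟩) = 0 := hker (LinearMap.mem_range_self Res ⟨q, hq⟩)
    rw [hℓsum] at hz
    have h1 : ∑ s ∈ S, c s * q s = ∑ s ∈ Ω, c s * q s := by
      symm
      apply sum_subset_zero_on_sdiff (filter_subset _ _)
      · intro s hs
        have : s ∉ Ω := (mem_sdiff.mp hs).2
        simp [c, this]
      · intro s _
        rfl
    rw [h1, ← sum_attach]
    rw [← hz]
    apply sum_congr rfl
    intro t _
    simp only [c, t.2, dite_true, Res, Subtype.coe_eta]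
    simp [mul_comm]
  refine no_lead hsep hAnn hu hcu ?_ hFP
  intro s hs hcs
  have hsΩ : s ∈ Ω := by
    by_contra h
    exact hcs (by simp [c, h])
  exact hω s hs (mem_filter.mp hsΩ).2


lemma tw_pos {p : ℝ × ℝ} (h : 0 < p.1 ∧ 0 < p.2) (s : Pt) : 0 < tw p s :=
  mul_pos (zpow_pos h.1 _) (zpow_pos h.2 _)

lemma tw_scale {τ : ℝ} (hτ : 0 < τ) (w : ℤ × ℤ) (s : Pt) :
    tw (τ ^ w.1, τ ^ w.2) s = τ ^ (lin w s) := by
  simp only [tw, lin]
  rw [zpow_add₀ hτ.ne', zpow_mul, zpow_mul]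

/-- a linear weight inducing the lexicographic order on a finite set. -/
lemma exists_weight (S : Finset Pt) (f g : ℤ × ℤ) :
    ∃ w0 : ℤ × ℤ, ∀ s ∈ S, ∀ t ∈ S, lin w0 s ≤ lin w0 t →
      lin f s < lin f t ∨ (lin f s = lin f t ∧ lin g s ≤ lin g t) := by
  set A : ℤ := ∑ s ∈ S, |lin g s| with hA
  have hA0 : 0 ≤ A := sum_nonneg (fun _ _ => abs_nonneg _)
  set B : ℤ := 2 * A + 1 with hB
  refine ⟨(B * f.1 + g.1, B * f.2 + g.2), ?_⟩
  have hlinw : ∀ s, lin (B * f.1 + g.1, B * f.2 + g.2) s = B * lin f s + lin g s := by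
    intro s; simp only [lin]; ring
  have habsle : ∀ s ∈ S, |lin g s| ≤ A := fun s hs =>
    single_le_sum (f := fun s => |lin g s|) (fun _ _ => abs_nonneg _) hs
  intro s hs t ht hle
  rw [hlinw, hlinw] at hle
  have h1 := abs_le.mp (habsle s hs)
  have h2 := abs_le.mp (habsle t ht)
  rcases lt_trichotomy (lin f s) (lin f t) with h | h | h
  · exact Or.inl h
  · refine Or.inr ⟨h, ?_⟩
    rw [h] at hle
    linarith
  · exfalso
    have h3 : B * (lin f t + 1) ≤ B * lin f s :=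
      mul_le_mul_of_nonneg_left (by omega) (by omega)
    nlinarith

/-- at the old points, the values on `S0` are controlled by the values off `S0`. -/
lemma old_bound {S S0 : Finset Pt} {n m : ℕ} (hS0 : S0 ⊆ S) (P : Fin n → ℝ × ℝ)
    (hK0 : ∀ c : Pt → ℝ, (∀ i, Ann S0 (fun s => c s * tw (P i) s) m) → ∀ s ∈ S0, c s = 0) :
    ∃ C : ℝ, 0 < C ∧ ∀ c : Pt → ℝ, (∀ i, Ann S (fun s => c s * tw (P i) s) m) →
      ∑ s ∈ S0, |c s| ≤ C * ∑ s ∈ S \ S0, |c s| := by
  classical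
  let ffm : Fin m → Fin m → Pt → ℝ := fun a b s => if (a : ℕ) + b < m then ff a b s else 0
  let ι := Fin n × Fin m × Fin m
  let ℓ : (↥S0 → ℝ) →ₗ[ℝ] (ι → ℝ) :=
    { toFun := fun x idx => ∑ s : ↥S0, x s * (tw (P idx.1) s * ffm idx.2.1 idx.2.2 s)
      map_add' := by
        intro x y
        funext idx
        simp only [Pi.add_apply, add_mul, sum_add_distrib]
      map_smul' := by
        intro a x
        funext idx
        simp only [Pi.smul_apply, smul_eq_mul, RingHom.id_apply, mul_sum]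
        apply sum_congr rfl
        intro s _
        ring }
  have hker : LinearMap.ker ℓ = ⊥ := by
    rw [LinearMap.ker_eq_bot']
    intro x hx
    let c : Pt → ℝ := fun s => if h : s ∈ S0 then x ⟨s, h⟩ else 0
    have hc0 : ∀ s ∈ S0, c s = 0 := by
      apply hK0
      intro i
      apply ann_of_ff
      intro a b hab
      have ha : a < m := by omega
      have hb : b < m := by omega
      have h1 := congrFun hx (i, ⟨a, ha⟩, ⟨b, hb⟩)
      simp only [ℓ, LinearMap.coe_mk, AddHom.coe_mk, Pi.zero_apply, ffm] at h1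
      rw [← sum_attach]
      rw [← h1]
      apply sum_congr rfl
      intro t _
      simp only [c, t.2, dite_true, Subtype.coe_eta, hab, if_true]
      ring
    funext s
    have := hc0 s.1 s.2
    simpa [c] using this
  obtain ⟨L, hL0, hL⟩ := LinearMap.exists_antilipschitzWith ℓ hker
  have hLnorm : ∀ x, ‖x‖ ≤ (L : ℝ) * ‖ℓ x‖ := by
    intro x
    have := hL.le_mul_dist x 0
    simpa [dist_eq_norm] using this
  set C2 : ℝ := ∑ idx : ι, ∑ s ∈ S, |tw (P idx.1) s * ffm idx.2.1 idx.2.2 s| + 1 with hC2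
  have hC2pos : 0 < C2 := by
    have : 0 ≤ ∑ idx : ι, ∑ s ∈ S, |tw (P idx.1) s * ffm idx.2.1 idx.2.2 s| :=
      sum_nonneg (fun _ _ => sum_nonneg (fun _ _ => abs_nonneg _))
    linarith
  have hC2le : ∀ idx : ι, ∀ s ∈ S, |tw (P idx.1) s * ffm idx.2.1 idx.2.2 s| ≤ C2 := by
    intro idx s hs
    have h1 : |tw (P idx.1) s * ffm idx.2.1 idx.2.2 s|
        ≤ ∑ s ∈ S, |tw (P idx.1) s * ffm idx.2.1 idx.2.2 s| :=
      single_le_sum (f := fun s => |tw (P idx.1) s * ffm idx.2.1 idx.2.2 s|)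
        (fun _ _ => abs_nonneg _) hs
    have h2 : ∑ s ∈ S, |tw (P idx.1) s * ffm idx.2.1 idx.2.2 s|
        ≤ ∑ idx : ι, ∑ s ∈ S, |tw (P idx.1) s * ffm idx.2.1 idx.2.2 s| :=
      single_le_sum (f := fun idx : ι => ∑ s ∈ S, |tw (P idx.1) s * ffm idx.2.1 idx.2.2 s|)
        (fun _ _ => sum_nonneg (fun _ _ => abs_nonneg _)) (mem_univ idx)
    linarith
  refine ⟨(S0.card + 1 : ℝ) * ((L : ℝ) * C2) + 1, by positivity, ?_⟩
  intro c hc
  set Y : ℝ := ∑ s ∈ S \ S0, |c s| with hY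
  have hY0 : 0 ≤ Y := sum_nonneg (fun _ _ => abs_nonneg _)
  let x : ↥S0 → ℝ := fun s => c s
  have hlx : ‖ℓ x‖ ≤ C2 * Y := by
    rw [pi_norm_le_iff_of_nonneg (by positivity)]
    rintro ⟨i, a, b⟩
    simp only [ℓ, LinearMap.coe_mk, AddHom.coe_mk, x, Real.norm_eq_abs]
    by_cases hab : (a : ℕ) + b < m
    · have h1 := hc i (ff a b) (ff_mem hab)
      rw [← sum_sdiff hS0] at h1
      have h2 : ∑ s : ↥S0, c s * (tw (P i) s * ffm a b s)
          = ∑ s ∈ S0, c s * tw (P i) s * ff a b s := by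
        rw [← sum_attach S0]
        apply sum_congr rfl
        intro t _
        simp only [ffm, hab, if_true]
        ring
      rw [h2]
      have h3 : ∑ s ∈ S0, c s * tw (P i) s * ff a b s
          = - ∑ s ∈ S \ S0, c s * tw (P i) s * ff a b s := by
        linarith
      rw [h3, abs_neg]
      calc |∑ s ∈ S \ S0, c s * tw (P i) s * ff a b s|
          ≤ ∑ s ∈ S \ S0, |c s * tw (P i) s * ff a b s| := abs_sum_le_sum_abs _ _
        _ ≤ ∑ s ∈ S \ S0, C2 * |c s| := by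
            apply sum_le_sum
            intro s hs
            have hsS := (mem_sdiff.mp hs).1
            have h4 := hC2le (i, a, b) s hsS
            simp only [ffm, hab, if_true] at h4
            rw [mul_assoc, abs_mul, mul_comm]
            exact mul_le_mul_of_nonneg_right h4 (abs_nonneg _)
        _ = C2 * Y := by rw [← mul_sum]
    · have : ∀ s : ↥S0, c s * (tw (P i) s * ffm a b s) = 0 := by
        intro s
        simp only [ffm, hab, if_false, mul_zero]
      simp only [this, sum_const_zero, abs_zero]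
      positivity
  have hxn : ‖x‖ ≤ (L : ℝ) * (C2 * Y) :=
    (hLnorm x).trans (mul_le_mul_of_nonneg_left hlx (by positivity))
  have hxs : ∀ s ∈ S0, |c s| ≤ (L : ℝ) * (C2 * Y) := by
    intro s hs
    have h1 : ‖x ⟨s, hs⟩‖ ≤ ‖x‖ := norm_le_pi_norm x ⟨s, hs⟩
    have h2 : ‖x ⟨s, hs⟩‖ = |c s| := by simp [x]
    rw [h2] at h1
    exact h1.trans hxn
  calc ∑ s ∈ S0, |c s| ≤ ∑ _s ∈ S0, (L : ℝ) * (C2 * Y) := sum_le_sum hxs
    _ = (S0.card : ℝ) * ((L : ℝ) * (C2 * Y)) := by simp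
    _ ≤ ((S0.card + 1 : ℝ) * ((L : ℝ) * C2) + 1) * Y := by
        have : 0 ≤ (L : ℝ) * C2 * Y := by positivity
        nlinarith

/-- at the new small point, values on the removed set are small. -/
lemma new_bound {S : Finset Pt} {m : ℕ} {w0 : ℤ × ℤ} {u : Pt} {q : Pt → ℝ} {C1 τ : ℝ}
    (hu : u ∈ S) (hτpos : 0 < τ) (hτlt : τ < 1) (hC1 : 0 < C1)
    (hinj : ∀ t ∈ S, lin w0 t = lin w0 u → t = u)
    (hq1 : q ∈ W m) (hq2 : q u = 1) (hq3 : ∀ t ∈ S, lin w0 t < lin w0 u → q t = 0)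
    (hqle : ∀ t ∈ S, |q t| ≤ C1) (c : Pt → ℝ)
    (hc : Ann S (fun s => c s * tw (τ ^ w0.1, τ ^ w0.2) s) m) :
    |c u| ≤ τ * C1 * ∑ s ∈ S, |c s| := by
  classical
  have h0 := hc q hq1
  simp only [tw_scale hτpos] at h0
  rw [← add_sum_erase S _ hu, hq2, mul_one] at h0
  set e := lin w0 u with he
  have hepos : 0 < τ ^ e := zpow_pos hτpos _
  have hbound : ∀ t ∈ S.erase u, |c t * τ ^ lin w0 t * q t| ≤ τ ^ e * τ * (|c t| * C1) := by
    intro t ht
    have htS := mem_of_mem_erase ht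
    have htne := (mem_erase.mp ht).1
    by_cases hlt : lin w0 t < e
    · rw [hq3 t htS hlt]
      simp only [mul_zero, abs_zero]
      have := abs_nonneg (c t)
      positivity
    · have hge : e + 1 ≤ lin w0 t := by
        by_contra hh
        have heq : lin w0 t = e := by omega
        exact htne (hinj t htS heq)
      have h5 : τ ^ lin w0 t ≤ τ ^ (e + 1) :=
        zpow_le_zpow_right_of_le_one₀ hτpos hτlt.le hge
      rw [zpow_add₀ hτpos.ne', zpow_one] at h5
      rw [abs_mul, abs_mul, abs_of_pos (zpow_pos hτpos (lin w0 t))]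
      have h6 := hqle t htS
      calc |c t| * τ ^ lin w0 t * |q t|
          ≤ |c t| * (τ ^ e * τ) * C1 := by
            apply mul_le_mul _ h6 (abs_nonneg _) (by positivity)
            exact mul_le_mul_of_nonneg_left h5 (abs_nonneg _)
        _ = τ ^ e * τ * (|c t| * C1) := by ring
  set M : ℝ := ∑ s ∈ S, |c s| with hM
  have h7 : |c u * τ ^ e| ≤ τ ^ e * τ * (M * C1) := by
    have h8 : c u * τ ^ e = - ∑ t ∈ S.erase u, c t * τ ^ lin w0 t * q t := by
      linarith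
    rw [h8, abs_neg]
    calc |∑ t ∈ S.erase u, c t * τ ^ lin w0 t * q t|
        ≤ ∑ t ∈ S.erase u, |c t * τ ^ lin w0 t * q t| := abs_sum_le_sum_abs _ _
      _ ≤ ∑ t ∈ S.erase u, τ ^ e * τ * (|c t| * C1) := sum_le_sum hbound
      _ = τ ^ e * τ * ((∑ t ∈ S.erase u, |c t|) * C1) := by
            rw [← mul_sum, sum_mul]
      _ ≤ τ ^ e * τ * (M * C1) := by
            apply mul_le_mul_of_nonneg_left _ (by positivity)
            apply mul_le_mul_of_nonneg_right _ hC1.le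
            exact sum_le_sum_of_subset_of_nonneg (erase_subset _ _) (fun _ _ _ => abs_nonneg _)
  rw [abs_mul, abs_of_pos hepos] at h7
  have h9 : |c u| * τ ^ e ≤ (τ * C1 * M) * τ ^ e := by
    calc |c u| * τ ^ e ≤ τ ^ e * τ * (M * C1) := h7
      _ = (τ * C1 * M) * τ ^ e := by ring
  exact le_of_mul_le_mul_right h9 hepos

/-- uniform smallness on the removed set at the new point. -/
lemma removed_small {S S0 S' : Finset Pt} {m : ℕ} {f g w0 : ℤ × ℤ} (hsep : Separates f g)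
    (hS0 : S0 = S.filter (fun s => s ∈ S'))
    (hlex : ∀ s ∈ S, ∀ t ∈ S, lin w0 s ≤ lin w0 t →
      lin f s < lin f t ∨ (lin f s = lin f t ∧ lin g s ≤ lin g t))
    (hFP : ∀ u ∈ S, u ∉ S' → FP S f g m u) :
    ∃ C1 : ℝ, 0 < C1 ∧ ∀ τ : ℝ, 0 < τ → τ < 1 → ∀ c : Pt → ℝ,
      Ann S (fun s => c s * tw (τ ^ w0.1, τ ^ w0.2) s) m →
      ∀ u ∈ S \ S0, |c u| ≤ τ * C1 * ∑ s ∈ S, |c s| := by
  classical
  have hinj : ∀ u ∈ S, ∀ t ∈ S, lin w0 t = lin w0 u → t = u := by
    intro u hu t ht heq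
    have h1 := hlex t ht u hu heq.le
    have h2 := hlex u hu t ht heq.ge
    have h3 : lin f t = lin f u := by
      rcases h1 with h1 | h1 <;> rcases h2 with h2 | h2
      · omega
      · omega
      · omega
      · exact h1.1
    have h4 : lin g t = lin g u := by
      rcases h1 with h1 | h1
      · omega
      rcases h2 with h2 | h2
      · omega
      · exact le_antisymm h1.2 h2.2
    exact hsep t u h3 h4
  have htest : ∀ u, ∃ q : Pt → ℝ, u ∈ S \ S0 → (q ∈ W m ∧ q u = 1 ∧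
      ∀ t ∈ S, lin w0 t < lin w0 u → q t = 0) := by
    intro u
    by_cases hu : u ∈ S \ S0
    · have hu' := mem_sdiff.mp hu
      have hnot : u ∉ S' := fun h => hu'.2 (by rw [hS0]; exact mem_filter.mpr ⟨hu'.1, h⟩)
      obtain ⟨q, hq1, hq2, hq3⟩ := exists_test hsep hu'.1 (hFP u hu'.1 hnot)
        (fun s => lin w0 s) (fun s hs hle => hlex s hs u hu'.1 hle)
      exact ⟨q, fun _ => ⟨hq1, hq2, hq3⟩⟩
    · exact ⟨0, fun h => absurd h hu⟩
  choose Q hQ using htest
  have hpos : 0 < ∑ u ∈ S \ S0, ∑ t ∈ S, |Q u t| + 1 := by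
    have : 0 ≤ ∑ u ∈ S \ S0, ∑ t ∈ S, |Q u t| :=
      sum_nonneg (fun _ _ => sum_nonneg (fun _ _ => abs_nonneg _))
    linarith
  refine ⟨∑ u ∈ S \ S0, ∑ t ∈ S, |Q u t| + 1, hpos, ?_⟩
  intro τ hτpos hτlt c h0 u hu
  obtain ⟨hq1, hq2, hq3⟩ := hQ u hu
  have huS := (mem_sdiff.mp hu).1
  refine new_bound huS hτpos hτlt hpos (hinj u huS) hq1 hq2 hq3 ?_ c h0
  intro t ht
  have h1 : |Q u t| ≤ ∑ t ∈ S, |Q u t| :=
    single_le_sum (f := fun t => |Q u t|) (fun _ _ => abs_nonneg _) ht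
  have h2 : ∑ t ∈ S, |Q u t| ≤ ∑ u ∈ S \ S0, ∑ t ∈ S, |Q u t| :=
    single_le_sum (f := fun u => ∑ t ∈ S, |Q u t|)
      (fun _ _ => sum_nonneg (fun _ _ => abs_nonneg _)) hu
  linarith

/-- real number bookkeeping at the end of the reduction. -/
lemma reduce_arith {M Y Z C N C1 τ : ℝ} (hM0 : 0 ≤ M) (hY0 : 0 ≤ Y) (hC : 0 < C) (hN : 0 ≤ N)
    (hC1 : 0 < C1) (hτ : τ = 1 / (2 * ((C + 1) * (N * C1) + 1) + 2))
    (hYle : Y ≤ N * (τ * C1 * M)) (hZ : Z ≤ C * Y) (hM : M = Y + Z) : M = 0 := by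
  have hC3pos : 0 < (C + 1) * (N * C1) + 1 := by positivity
  have hτpos : 0 < τ := by rw [hτ]; positivity
  have hτC3 : τ * ((C + 1) * (N * C1) + 1) ≤ 1 / 2 := by
    rw [hτ, div_mul_eq_mul_div, one_mul, div_le_iff₀ (by positivity)]
    linarith
  have h1 : M ≤ (C + 1) * Y := by
    rw [hM]
    nlinarith
  have h2 : (C + 1) * Y ≤ (C + 1) * (N * (τ * C1 * M)) :=
    mul_le_mul_of_nonneg_left hYle (by positivity)
  have h4 : τ * ((C + 1) * (N * C1) + 1) * M ≤ 1 / 2 * M := mul_le_mul_of_nonneg_right hτC3 hM0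
  have h3 : (C + 1) * (N * (τ * C1 * M)) ≤ τ * ((C + 1) * (N * C1) + 1) * M := by
    have : τ * ((C + 1) * (N * C1) + 1) * M = (C + 1) * (N * (τ * C1 * M)) + τ * M := by
      ring
    rw [this]
    have : 0 ≤ τ * M := by positivity
    linarith
  linarith

theorem reduce {S S' : Finset Pt} {n m : ℕ} {f g : ℤ × ℤ} (hsep : Separates f g)
    (hFP : ∀ u ∈ S, u ∉ S' → FP S f g m u) (K : Kill S' n m) : Kill S (n + 1) m := by
  classical
  obtain ⟨w0, hlex⟩ := exists_weight S f g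
  have hS0S : S.filter (fun s => s ∈ S') ⊆ S := filter_subset _ _
  obtain ⟨P, hP, hK0⟩ := K.mono (show S.filter (fun s => s ∈ S') ⊆ S' from
    fun s hs => (mem_filter.mp hs).2)
  obtain ⟨C1, hC1pos, hsmall⟩ := removed_small (S0 := S.filter (fun s => s ∈ S')) hsep rfl hlex hFP
  obtain ⟨C, hCpos, hC⟩ := old_bound hS0S P hK0
  have hN0 : (0 : ℝ) ≤ (S.card : ℝ) := Nat.cast_nonneg _
  obtain ⟨τ, hτ⟩ : ∃ τ : ℝ, τ = 1 / (2 * ((C + 1) * ((S.card : ℝ) * C1) + 1) + 2) := ⟨_, rfl⟩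
  have hC3pos : 0 < (C + 1) * ((S.card : ℝ) * C1) + 1 := by positivity
  have hτpos : 0 < τ := by rw [hτ]; positivity
  have hτlt : τ < 1 := by
    rw [hτ, div_lt_one (by positivity)]
    linarith
  refine ⟨Fin.cons (τ ^ w0.1, τ ^ w0.2) P, ?_, ?_⟩
  · intro i
    refine Fin.cases ?_ (fun j => ?_) i
    · simp only [Fin.cons_zero]
      exact ⟨zpow_pos hτpos _, zpow_pos hτpos _⟩
    · simp only [Fin.cons_succ]
      exact hP j
  intro c hc
  have hM0 : 0 ≤ ∑ s ∈ S, |c s| := sum_nonneg (fun _ _ => abs_nonneg _)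
  have h0 : Ann S (fun s => c s * tw (τ ^ w0.1, τ ^ w0.2) s) m := by
    have := hc 0
    simpa only [Fin.cons_zero] using this
  have hGest := hsmall τ hτpos hτlt c h0
  have hY0 : 0 ≤ ∑ u ∈ S \ S.filter (fun s => s ∈ S'), |c u| :=
    sum_nonneg (fun _ _ => abs_nonneg _)
  have hYle : ∑ u ∈ S \ S.filter (fun s => s ∈ S'), |c u|
      ≤ (S.card : ℝ) * (τ * C1 * ∑ s ∈ S, |c s|) := by
    calc ∑ u ∈ S \ S.filter (fun s => s ∈ S'), |c u|
        ≤ ∑ _u ∈ S \ S.filter (fun s => s ∈ S'), τ * C1 * ∑ s ∈ S, |c s| := sum_le_sum hGest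
      _ = ((S \ S.filter (fun s => s ∈ S')).card : ℝ) * (τ * C1 * ∑ s ∈ S, |c s|) := by
          rw [sum_const, nsmul_eq_mul]
      _ ≤ (S.card : ℝ) * (τ * C1 * ∑ s ∈ S, |c s|) := by
          apply mul_le_mul_of_nonneg_right _ (by positivity)
          exact_mod_cast card_le_card sdiff_subset
  have hZ : ∑ s ∈ S.filter (fun s => s ∈ S'), |c s|
      ≤ C * ∑ u ∈ S \ S.filter (fun s => s ∈ S'), |c u| := by
    apply hC c
    intro i
    have := hc i.succ
    simpa only [Fin.cons_succ] using this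
  have hMsplit : ∑ s ∈ S, |c s| = ∑ u ∈ S \ S.filter (fun s => s ∈ S'), |c u|
      + ∑ s ∈ S.filter (fun s => s ∈ S'), |c s| := (sum_sdiff hS0S).symm
  have hMzero := reduce_arith hM0 hY0 hCpos hN0 hC1pos hτ hYle hZ hMsplit
  intro s hs
  have : |c s| ≤ ∑ s ∈ S, |c s| :=
    single_le_sum (f := fun s => |c s|) (fun _ _ => abs_nonneg _) hs
  rw [hMzero] at this
  exact abs_nonpos_iff.mp this

end Vale.Agent.Lib.P279
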