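import Vale.Agent.Lib.P279.Curve

namespace Vale.Agent.Lib.P279

/-- a rational bound with `A q² ≤ B p²` turns `p m ≤ q d` into `A m² ≤ B d²`. -/
lemma kappa_of_bound {p q m d A B : ℕ} (hq : 0 < q) (h : p * m ≤ q * d)
    (hpq : A * q ^ 2 ≤ B * p ^ 2) : A * m ^ 2 ≤ B * d ^ 2 := by
  have h2 : (p * m) ^ 2 ≤ (q * d) ^ 2 := Nat.pow_le_pow_left h 2
  have h3 : (A * m ^ 2) * q ^ 2 ≤ (B * d ^ 2) * q ^ 2 := by
    calc (A * m ^ 2) * q ^ 2 = (A * q ^ 2) * m ^ 2 := by ring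
      _ ≤ (B * p ^ 2) * m ^ 2 := Nat.mul_le_mul_right _ hpq
      _ = B * (p * m) ^ 2 := by ring
      _ ≤ B * (q * d) ^ 2 := Nat.mul_le_mul_left _ h2
      _ = (B * d ^ 2) * q ^ 2 := by ring
  exact Nat.le_of_mul_le_mul_right h3 (by positivity)

/-- the general principle in quadratic form. -/
theorem quad_bound_of_kill {r p q A B : ℕ} (hq : 0 < q) (hpq : A * q ^ 2 ≤ B * p ^ 2)
    (hK : ∀ N : ℕ, Kill (T (p * N)) r (q * N + 1)) :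
    ∃ G : ℕ → MvPolynomial (Fin r × Fin 2) ℂ, (∀ N, G N ≠ 0) ∧
      ∀ t : Fin r × Fin 2 → ℂ, (∀ N, MvPolynomial.eval t (G N) ≠ 0) →
        ∀ (d m : ℕ) (F : MvPolynomial (Fin 3) ℂ), F ≠ 0 → F.IsHomogeneous d →
          (∀ i, MultGE F ![t (i, 0), t (i, 1), 1] m) → A * m ^ 2 ≤ B * d ^ 2 := by
  obtain ⟨G, h1, h2⟩ := bound_of_kill hK
  refine ⟨G, h1, fun t ht d m F h0 hF hm => ?_⟩
  exact kappa_of_bound hq (h2 t ht d m F h0 hF hm) hpq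

end Vale.Agent.Lib.P279
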